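import Mathlib

/-!
# Commutator identities in groups of nilpotency class at most three (board task G3-COMM)

EXACT statements to prove (do not change them): `c3_central`, `c3_central'`, `c3_bracket_mul`,
`c3_comm2`, `c3_bracket_pow`, `c3_step`, `c3_bracket_list`.

Setting: `G` is a group in which every left-normed commutator of weight four is trivial
(`h3 : ∀ a b c d : G, ⁅⁅⁅a, b⁆, c⁆, d⁆ = 1`), where `⁅g, h⁆ = g * h * g⁻¹ * h⁻¹`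
(`commutatorElement_def`; the bracket needs `open scoped commutatorElement`). Checked numerically in the group of unitriangular 4 x 4 matrices.

Proof sketch.
* `c3_central`: `h3 a b c x` says `⁅z, x⁆ = 1` for `z := ⁅⁅a, b⁆, c⁆`, i.e. `z * x = x * z`
  (`commutatorElement_eq_one_iff_mul_comm`).
* `c3_central'`: `⁅c, ⁅a, b⁆⁆ = ⁅⁅a, b⁆, c⁆⁻¹` (`commutatorElement_inv`); inverses of central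
  elements are central.
* `c3_bracket_mul`: with `k := ⁅a, b⁆`,
  `⁅x * y, k⁆ = x * ⁅y, k⁆ * x⁻¹ * ⁅x, k⁆` (pure group identity, `group`) and `⁅y, k⁆` is central
  (`c3_central'`).
* `c3_comm2`: with `x := ⁅a, b⁆`, for every `y` one has `y * x * y⁻¹ = ⁅y, x⁆ * x` with `⁅y, x⁆`
  central, and `⁅y⁻¹, x⁆ = ⁅y, x⁆⁻¹` by `c3_bracket_mul` applied to `y * y⁻¹`. Conjugating `x`
  successively by `d⁻¹`, `c⁻¹`, `d`, `c` multiplies it by central elements that cancel, so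
  `⁅c, d⁆ * x * ⁅c, d⁆⁻¹ = x`.
* `c3_bracket_pow`: induction on `N` with `⁅g * y, h⁆ = g * ⁅y, h⁆ * g⁻¹ * ⁅g, h⁆`,
  `g * z * g⁻¹ = ⁅g, z⁆ * z`, `⁅g, c * c'⁆ = ⁅g, c⁆ * ⁅g, c'⁆` for `c' = ⁅g, h⁆` (central values),
  `⁅g, c ^ N⁆ = ⁅g, c⁆ ^ N`, and `(N + 1).choose 2 = N.choose 2 + N`.
* `c3_step`: `P * g ^ N * h = (P * ⁅g ^ N, h⁆ * P⁻¹) * (P * h) * g ^ N` (pure group identity), then
  `c3_bracket_pow`, `P * c * P⁻¹ = ⁅P, c⁆ * c` and centrality of `⁅P, c⁆` and of `⁅g, c⁆`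
  for `c := ⁅g, h⁆`.
* `c3_bracket_list`: induction on `l` with `c3_bracket_mul`.
-/

namespace Vale.Agent.H72

open scoped commutatorElement

variable {G : Type*} [Group G]

theorem c3_central (h3 : ∀ a b c d : G, ⁅⁅⁅a, b⁆, c⁆, d⁆ = 1) (a b c x : G) :
    ⁅⁅a, b⁆, c⁆ * x = x * ⁅⁅a, b⁆, c⁆ :=
  commutatorElement_eq_one_iff_mul_comm.1 (h3 a b c x)

theorem c3_central' (h3 : ∀ a b c d : G, ⁅⁅⁅a, b⁆, c⁆, d⁆ = 1) (a b c x : G) :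
    ⁅c, ⁅a, b⁆⁆ * x = x * ⁅c, ⁅a, b⁆⁆ := by
  have hz := c3_central h3 a b c x
  rw [← commutatorElement_inv ⁅a, b⁆ c]
  calc ⁅⁅a, b⁆, c⁆⁻¹ * x = ⁅⁅a, b⁆, c⁆⁻¹ * (x * ⁅⁅a, b⁆, c⁆) * ⁅⁅a, b⁆, c⁆⁻¹ := by group
    _ = ⁅⁅a, b⁆, c⁆⁻¹ * (⁅⁅a, b⁆, c⁆ * x) * ⁅⁅a, b⁆, c⁆⁻¹ := by rw [hz]
    _ = x * ⁅⁅a, b⁆, c⁆⁻¹ := by group

/-- The brackets `⁅c, ⁅a, b⁆⁆` commute with everything, in `Commute` form. -/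
theorem c3comm_commute (h3 : ∀ a b c d : G, ⁅⁅⁅a, b⁆, c⁆, d⁆ = 1) (a b c x : G) :
    Commute ⁅c, ⁅a, b⁆⁆ x :=
  c3_central' h3 a b c x

theorem c3_bracket_mul (h3 : ∀ a b c d : G, ⁅⁅⁅a, b⁆, c⁆, d⁆ = 1) (x y a b : G) :
    ⁅x * y, ⁅a, b⁆⁆ = ⁅x, ⁅a, b⁆⁆ * ⁅y, ⁅a, b⁆⁆ := by
  have hc := c3_central' h3 a b y
  have e1 : ⁅x * y, ⁅a, b⁆⁆ = x * ⁅y, ⁅a, b⁆⁆ * x⁻¹ * ⁅x, ⁅a, b⁆⁆ := by
    simp only [commutatorElement_def]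
    group
  rw [e1, ← hc x, mul_inv_cancel_right, hc]

/-- Conjugation by `y` multiplies a commutator by a central bracket. -/
theorem c3comm_conj (y z : G) : y * z * y⁻¹ = ⁅y, z⁆ * z := by
  simp only [commutatorElement_def]
  group

/-- The bracket with a fixed commutator sends inverses to inverses. -/
theorem c3comm_bracket_inv (h3 : ∀ a b c d : G, ⁅⁅⁅a, b⁆, c⁆, d⁆ = 1) (y a b : G) :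
    ⁅y⁻¹, ⁅a, b⁆⁆ = ⁅y, ⁅a, b⁆⁆⁻¹ := by
  have h := c3_bracket_mul h3 y y⁻¹ a b
  rw [mul_inv_cancel, commutatorElement_one_left] at h
  exact eq_inv_of_mul_eq_one_right h.symm

theorem c3_comm2 (h3 : ∀ a b c d : G, ⁅⁅⁅a, b⁆, c⁆, d⁆ = 1) (a b c d : G) :
    ⁅a, b⁆ * ⁅c, d⁆ = ⁅c, d⁆ * ⁅a, b⁆ := by
  have key : ⁅⁅c, d⁆, ⁅a, b⁆⁆ = 1 := by
    have e : ⁅c, d⁆ = c * d * c⁻¹ * d⁻¹ := commutatorElement_def c d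
    have hcd := c3_central' h3 a b c ⁅d, ⁅a, b⁆⁆
    calc ⁅⁅c, d⁆, ⁅a, b⁆⁆ = ⁅c * d * c⁻¹ * d⁻¹, ⁅a, b⁆⁆ := by rw [← e]
      _ = ⁅c, ⁅a, b⁆⁆ * ⁅d, ⁅a, b⁆⁆ * ⁅c, ⁅a, b⁆⁆⁻¹ * ⁅d, ⁅a, b⁆⁆⁻¹ := by
        rw [c3_bracket_mul h3, c3_bracket_mul h3, c3_bracket_mul h3, c3comm_bracket_inv h3,
          c3comm_bracket_inv h3]
      _ = ⁅d, ⁅a, b⁆⁆ * ⁅c, ⁅a, b⁆⁆ * ⁅c, ⁅a, b⁆⁆⁻¹ * ⁅d, ⁅a, b⁆⁆⁻¹ := by rw [hcd]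
      _ = 1 := by group
  exact (commutatorElement_eq_one_iff_mul_comm.1 key).symm

theorem c3_bracket_pow (h3 : ∀ a b c d : G, ⁅⁅⁅a, b⁆, c⁆, d⁆ = 1) (g h : G) (N : ℕ) :
    ⁅g ^ N, h⁆ = ⁅g, h⁆ ^ N * ⁅g, ⁅g, h⁆⁆ ^ (N.choose 2) := by
  induction N with
  | zero => simp
  | succ N ih =>
    have he : ∀ x : G, Commute ⁅g, ⁅g, h⁆⁆ x := fun x => c3comm_commute h3 g h g x
    have e1 : ⁅g ^ (N + 1), h⁆ = g * ⁅g ^ N, h⁆ * g⁻¹ * ⁅g, h⁆ := by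
      rw [pow_succ']
      simp only [commutatorElement_def]
      group
    have e2 : g * ⁅g, h⁆ ^ N * g⁻¹ = ⁅g, ⁅g, h⁆⁆ ^ N * ⁅g, h⁆ ^ N := by
      rw [← conj_pow, c3comm_conj, (he ⁅g, h⁆).mul_pow]
    have e3 : (N + 1).choose 2 = N.choose 2 + N := by
      rw [Nat.choose_succ_succ, Nat.choose_one_right, add_comm]
    rw [e1, ih, e3]
    calc g * (⁅g, h⁆ ^ N * ⁅g, ⁅g, h⁆⁆ ^ N.choose 2) * g⁻¹ * ⁅g, h⁆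
        = g * ⁅g, h⁆ ^ N * (⁅g, ⁅g, h⁆⁆ ^ N.choose 2 * g⁻¹) * ⁅g, h⁆ := by group
      _ = g * ⁅g, h⁆ ^ N * (g⁻¹ * ⁅g, ⁅g, h⁆⁆ ^ N.choose 2) * ⁅g, h⁆ := by
        rw [((he g⁻¹).pow_left (N.choose 2)).eq]
      _ = (g * ⁅g, h⁆ ^ N * g⁻¹) * (⁅g, ⁅g, h⁆⁆ ^ N.choose 2 * ⁅g, h⁆) := by group
      _ = (⁅g, ⁅g, h⁆⁆ ^ N * ⁅g, h⁆ ^ N) * (⁅g, h⁆ * ⁅g, ⁅g, h⁆⁆ ^ N.choose 2) := by
        rw [e2, ((he ⁅g, h⁆).pow_left (N.choose 2)).eq]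
      _ = ⁅g, ⁅g, h⁆⁆ ^ N * (⁅g, h⁆ ^ (N + 1) * ⁅g, ⁅g, h⁆⁆ ^ N.choose 2) := by
        rw [pow_succ]
        group
      _ = (⁅g, h⁆ ^ (N + 1) * ⁅g, ⁅g, h⁆⁆ ^ N.choose 2) * ⁅g, ⁅g, h⁆⁆ ^ N := by
        rw [((he (⁅g, h⁆ ^ (N + 1) * ⁅g, ⁅g, h⁆⁆ ^ N.choose 2)).pow_left N).eq]
      _ = ⁅g, h⁆ ^ (N + 1) * ⁅g, ⁅g, h⁆⁆ ^ (N.choose 2 + N) := by
        rw [pow_add ⁅g, ⁅g, h⁆⁆, mul_assoc]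

theorem c3_step (h3 : ∀ a b c d : G, ⁅⁅⁅a, b⁆, c⁆, d⁆ = 1) (P g h : G) (N : ℕ) :
    P * g ^ N * h =
      (⁅g, h⁆ ^ N * ⁅g, ⁅g, h⁆⁆ ^ (N.choose 2) * ⁅P, ⁅g, h⁆⁆ ^ N) * (P * h) * g ^ N := by
  have he : ∀ x : G, Commute ⁅g, ⁅g, h⁆⁆ x := fun x => c3comm_commute h3 g h g x
  have hp : ∀ x : G, Commute ⁅P, ⁅g, h⁆⁆ x := fun x => c3comm_commute h3 g h P x
  have e1 : P * g ^ N * h = (P * ⁅g ^ N, h⁆ * P⁻¹) * (P * h) * g ^ N := by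
    simp only [commutatorElement_def]
    group
  have e2 : P * ⁅g, h⁆ ^ N * P⁻¹ = ⁅P, ⁅g, h⁆⁆ ^ N * ⁅g, h⁆ ^ N := by
    rw [← conj_pow, c3comm_conj, (hp ⁅g, h⁆).mul_pow]
  have e3 : P * ⁅g ^ N, h⁆ * P⁻¹
      = ⁅g, h⁆ ^ N * ⁅g, ⁅g, h⁆⁆ ^ (N.choose 2) * ⁅P, ⁅g, h⁆⁆ ^ N := by
    rw [c3_bracket_pow h3]
    calc P * (⁅g, h⁆ ^ N * ⁅g, ⁅g, h⁆⁆ ^ N.choose 2) * P⁻¹
        = P * ⁅g, h⁆ ^ N * (⁅g, ⁅g, h⁆⁆ ^ N.choose 2 * P⁻¹) := by group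
      _ = P * ⁅g, h⁆ ^ N * (P⁻¹ * ⁅g, ⁅g, h⁆⁆ ^ N.choose 2) := by
        rw [((he P⁻¹).pow_left (N.choose 2)).eq]
      _ = (P * ⁅g, h⁆ ^ N * P⁻¹) * ⁅g, ⁅g, h⁆⁆ ^ N.choose 2 := by group
      _ = ⁅P, ⁅g, h⁆⁆ ^ N * (⁅g, h⁆ ^ N * ⁅g, ⁅g, h⁆⁆ ^ N.choose 2) := by
        rw [e2, mul_assoc]
      _ = ⁅g, h⁆ ^ N * ⁅g, ⁅g, h⁆⁆ ^ N.choose 2 * ⁅P, ⁅g, h⁆⁆ ^ N := by
        rw [((hp (⁅g, h⁆ ^ N * ⁅g, ⁅g, h⁆⁆ ^ N.choose 2)).pow_left N).eq]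
  rw [e1, e3]

theorem c3_bracket_list {α : Type*} (h3 : ∀ a b c d : G, ⁅⁅⁅a, b⁆, c⁆, d⁆ = 1) (φ : α → G)
    (l : List α) (a b : G) :
    ⁅(l.map φ).prod, ⁅a, b⁆⁆ = (l.map fun z => ⁅φ z, ⁅a, b⁆⁆).prod := by
  induction l with
  | nil => simp
  | cons z l ih =>
    rw [List.map_cons, List.prod_cons, List.map_cons, List.prod_cons, c3_bracket_mul h3, ih]

end Vale.Agent.H72
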