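import Mathlib

/-!
# Products of powers of a commuting family (board task G3-CPROD)

EXACT statements to prove (do not change them; the definition `cprod` is fixed): `cprod_zero`,
`cprod_single`, `cprod_add`, `cprod_pow`, `cprod_commute`, `cprod_congr_mod`, `cprod_list`.

`cprod t E` is the product, over all indices `i` of a finite type in a fixed order, of the
powers `t i ^ E i`. When the `t i` commute pairwise it is additive in the exponents.

Proof sketch. Generalize to an arbitrary list of indices `l` in place of
`Finset.univ.toList` (for `cprod_single` and `cprod_list` use that it has no duplicates and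
contains every index: `Finset.nodup_toList`, `Finset.mem_toList`).
* `cprod_add`: induction on the list; `t i ^ (E i + F i) = t i ^ E i * t i ^ F i` and
  `t i ^ F i` commutes with the product of the remaining `t j ^ E j`.
* `cprod_pow`: induction on `N` with `cprod_add` and `cprod_zero`.
* `cprod_congr_mod`: `t i ^ n = t i ^ n'` when `n ≡ n' [MOD Fintype.card G]`
  (`pow_eq_pow_iff_modEq`, `orderOf_dvd_card`, `Nat.ModEq.of_dvd`).
* `cprod_list`: induction on `l` from the right (`List.reverseRecOn`) with `cprod_add`,
  `cprod_single`, `List.count_append`, `List.count_singleton`.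
-/

namespace Vale.Agent.H72

variable {G : Type*} [Group G] {ι : Type*} [Fintype ι] [DecidableEq ι]

/-- The product over all indices, in a fixed order, of the powers `t i ^ E i`. -/
noncomputable def cprod (t : ι → G) (E : ι → ℕ) : G :=
  ((Finset.univ : Finset ι).toList.map fun i => t i ^ E i).prod

/-- List version of `cprod_zero`. -/
theorem cprodL_zero (t : ι → G) (l : List ι) : (l.map fun i => t i ^ (0 : ℕ)).prod = 1 := by
  induction l with
  | nil => simp
  | cons a l ih => simp

/-- List version of `cprod_commute`. -/
theorem cprodL_commute (t : ι → G) (E : ι → ℕ) (x : G) (hx : ∀ i, t i * x = x * t i)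
    (l : List ι) : Commute (l.map fun i => t i ^ E i).prod x := by
  apply Commute.list_prod_left
  intro y hy
  rw [List.mem_map] at hy
  obtain ⟨i, _, rfl⟩ := hy
  have h : Commute (t i) x := hx i
  exact h.pow_left (E i)

/-- List version of `cprod_add`. -/
theorem cprodL_add (t : ι → G) (hc : ∀ i j, t i * t j = t j * t i) (E F : ι → ℕ)
    (l : List ι) :
    (l.map fun i => t i ^ (E i + F i)).prod
      = (l.map fun i => t i ^ E i).prod * (l.map fun i => t i ^ F i).prod := by
  induction l with
  | nil => simp
  | cons a l ih =>
    rw [List.map_cons, List.prod_cons, List.map_cons, List.prod_cons, List.map_cons,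
      List.prod_cons, ih, pow_add]
    have h1 : Commute (l.map fun i => t i ^ E i).prod (t a ^ F a) := by
      apply cprodL_commute t E (t a ^ F a) _ l
      intro i
      have h : Commute (t i) (t a) := hc i a
      exact (h.pow_right (F a)).eq
    have h2 : (l.map fun i => t i ^ E i).prod * t a ^ F a
        = t a ^ F a * (l.map fun i => t i ^ E i).prod := h1.eq
    calc t a ^ E a * t a ^ F a
          * ((l.map fun i => t i ^ E i).prod * (l.map fun i => t i ^ F i).prod)
        = t a ^ E a * (t a ^ F a * (l.map fun i => t i ^ E i).prod)
            * (l.map fun i => t i ^ F i).prod := by simp only [mul_assoc]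
      _ = t a ^ E a * ((l.map fun i => t i ^ E i).prod * t a ^ F a)
            * (l.map fun i => t i ^ F i).prod := by rw [h2]
      _ = t a ^ E a * (l.map fun i => t i ^ E i).prod
            * (t a ^ F a * (l.map fun i => t i ^ F i).prod) := by simp only [mul_assoc]

/-- List version of `cprod_single`, for an index not in the list. -/
theorem cprodL_single_not_mem (t : ι → G) (i₀ : ι) (n : ℕ) (l : List ι) (h : i₀ ∉ l) :
    (l.map fun i => t i ^ (if i = i₀ then n else 0)).prod = 1 := by
  induction l with
  | nil => simp
  | cons a l ih =>
    rw [List.mem_cons, not_or] at h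
    rw [List.map_cons, List.prod_cons, ih h.2]
    have ha : a ≠ i₀ := fun e => h.1 e.symm
    rw [if_neg ha]
    simp

/-- List version of `cprod_single`, for a list without duplicates containing the index. -/
theorem cprodL_single_mem (t : ι → G) (i₀ : ι) (n : ℕ) (l : List ι) (hn : l.Nodup)
    (h : i₀ ∈ l) :
    (l.map fun i => t i ^ (if i = i₀ then n else 0)).prod = t i₀ ^ n := by
  induction l with
  | nil => simp at h
  | cons a l ih =>
    rw [List.nodup_cons] at hn
    rw [List.map_cons, List.prod_cons]
    by_cases ha : a = i₀
    · subst ha
      rw [if_pos rfl, cprodL_single_not_mem t a n l hn.1, mul_one]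
    · rw [if_neg ha]
      have h' : i₀ ∈ l := by
        rcases List.mem_cons.1 h with e | e
        · exact absurd e.symm ha
        · exact e
      rw [ih hn.2 h']
      simp

theorem cprod_zero (t : ι → G) : cprod t (fun _ => 0) = 1 := by
  unfold cprod
  exact cprodL_zero t _

theorem cprod_single (t : ι → G) (i₀ : ι) (n : ℕ) :
    cprod t (fun i => if i = i₀ then n else 0) = t i₀ ^ n := by
  unfold cprod
  exact cprodL_single_mem t i₀ n _ (Finset.nodup_toList _)
    (Finset.mem_toList.2 (Finset.mem_univ i₀))

theorem cprod_add (t : ι → G) (hc : ∀ i j, t i * t j = t j * t i) (E F : ι → ℕ) :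
    cprod t (fun i => E i + F i) = cprod t E * cprod t F := by
  unfold cprod
  exact cprodL_add t hc E F _

theorem cprod_pow (t : ι → G) (hc : ∀ i j, t i * t j = t j * t i) (E : ι → ℕ) (N : ℕ) :
    cprod t E ^ N = cprod t (fun i => N * E i) := by
  induction N with
  | zero =>
    rw [pow_zero]
    have e : (fun i => 0 * E i) = fun _ : ι => 0 := by
      funext i
      exact Nat.zero_mul _
    rw [e, cprod_zero]
  | succ N ih =>
    rw [pow_succ, ih, ← cprod_add t hc]
    congr 1
    funext i
    ring

theorem cprod_commute (t : ι → G) (E : ι → ℕ) (x : G) (hx : ∀ i, t i * x = x * t i) :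
    cprod t E * x = x * cprod t E := by
  unfold cprod
  exact (cprodL_commute t E x hx _).eq

theorem cprod_congr_mod [Fintype G] (t : ι → G) (E F : ι → ℕ)
    (h : ∀ i, E i ≡ F i [MOD Fintype.card G]) : cprod t E = cprod t F := by
  unfold cprod
  congr 1
  apply List.map_congr_left
  intro i _
  rw [pow_eq_pow_iff_modEq]
  exact (h i).of_dvd (orderOf_dvd_card)

theorem cprod_list (t : ι → G) (hc : ∀ i j, t i * t j = t j * t i) (l : List ι) :
    (l.map t).prod = cprod t (fun i => l.count i) := by
  induction l using List.reverseRecOn with
  | nil =>
    simp only [List.map_nil, List.prod_nil, List.count_nil]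
    exact (cprod_zero t).symm
  | append_singleton l a ih =>
    rw [List.map_append, List.prod_append, ih, List.map_singleton, List.prod_singleton]
    have e1 : t a = cprod t (fun i => if i = a then 1 else 0) := by
      rw [cprod_single, pow_one]
    rw [e1, ← cprod_add t hc]
    congr 1
    funext i
    rw [List.count_append, List.count_singleton]
    by_cases hi : i = a
    · subst hi
      simp
    · have hi' : ¬ (a = i) := fun e => hi e.symm
      simp [hi, hi']

end Vale.Agent.H72
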