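import Mathlib

/-!
# Counting scattered subwords

`subCount u w` is the number of occurrences of `u` as a scattered subword of `w`, i.e. the
number of sublists of `w` (one for every set of positions) that are equal to `u`. This file
proves the recursion from the right and the single-position formulas for subwords of length at
most three.
-/

namespace Vale.Agent.H72

universe u

variable {α : Type u} [DecidableEq α]

/-- The number of occurrences of `u` as a scattered subword of `w`: the number of sublists of
`w`, one for every set of positions, that are equal to `u`. -/
def subCount (u w : List α) : ℕ := (List.sublists w).count u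

theorem subCount_nil_nil : subCount ([] : List α) [] = 1 := by
  simp [subCount]

theorem subCount_snoc_snoc (u w : List α) (x y : α) :
    subCount (u ++ [x]) (w ++ [y]) = subCount (u ++ [x]) w + if x = y then subCount u w else 0 := by
  unfold subCount
  rw [List.sublists_concat, List.count_append]
  congr 1
  by_cases hxy : x = y
  · subst hxy
    rw [if_pos rfl]
    exact List.count_map_of_injective _ (fun v : List α => v ++ [x])
      (List.append_left_injective [x]) u
  · rw [if_neg hxy]
    apply List.count_eq_zero.2
    intro hmem
    obtain ⟨v, _, hv⟩ := List.mem_map.1 hmem
    have h := (List.append_inj' hv rfl).2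
    exact hxy (List.singleton_inj.1 h).symm

theorem subCount_nil_left (w : List α) : subCount [] w = 1 := by
  induction w using List.reverseRecOn with
  | nil => exact subCount_nil_nil
  | append_singleton w y ih =>
    unfold subCount at ih ⊢
    rw [List.sublists_concat, List.count_append, ih]
    have h0 : List.count [] (List.map (fun v : List α => v ++ [y]) (List.sublists w)) = 0 := by
      apply List.count_eq_zero.2
      intro hmem
      obtain ⟨v, _, hv⟩ := List.mem_map.1 hmem
      simp at hv
    rw [h0]

theorem subCount_one_snoc (a : α) (w : List α) (y : α) :
    subCount [a] (w ++ [y]) = subCount [a] w + if a = y then 1 else 0 := by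
  have h := subCount_snoc_snoc [] w a y
  rw [subCount_nil_left] at h
  exact h

theorem subCount_two_snoc (a b : α) (w : List α) (y : α) :
    subCount [a, b] (w ++ [y]) = subCount [a, b] w + if b = y then subCount [a] w else 0 :=
  subCount_snoc_snoc [a] w b y

theorem subCount_three_snoc (a b c : α) (w : List α) (y : α) :
    subCount [a, b, c] (w ++ [y]) =
      subCount [a, b, c] w + if c = y then subCount [a, b] w else 0 :=
  subCount_snoc_snoc [a, b] w c y

theorem subCount_one_nil (a : α) : subCount [a] ([] : List α) = 0 := by
  simp [subCount]

theorem subCount_two_nil (a b : α) : subCount [a, b] ([] : List α) = 0 := by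
  simp [subCount]

theorem subCount_three_nil (a b c : α) : subCount [a, b, c] ([] : List α) = 0 := by
  simp [subCount]

/-- Subwords of length one: the number of occurrences of the letter. -/
theorem subCount_one (a : α) (w : List α) : subCount [a] w = w.count a := by
  induction w using List.reverseRecOn with
  | nil => simp [subCount_one_nil]
  | append_singleton w y ih =>
    rw [subCount_one_snoc, ih, List.count_append, List.count_singleton]
    congr 1
    by_cases h : a = y
    · simp [h]
    · have h' : ¬ y = a := fun e => h e.symm
      simp [h, h']

/-- A sum over the positions of `w` carrying the letter `x` of a function of the part of `w`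
before the position and the part after it. -/
def psum (x : α) (G : List α → List α → ℕ) (w : List α) : ℕ :=
  ∑ i ∈ Finset.range w.length, if w[i]? = some x then G (w.take i) (w.drop (i + 1)) else 0

theorem psum_nil (x : α) (G : List α → List α → ℕ) : psum x G [] = 0 := by
  simp [psum]

theorem psum_snoc (x : α) (G : List α → List α → ℕ) (w : List α) (y : α) :
    psum x G (w ++ [y]) =
      (∑ i ∈ Finset.range w.length,
        if w[i]? = some x then G (w.take i) (w.drop (i + 1) ++ [y]) else 0) +
        if y = x then G w [] else 0 := by
  unfold psum
  rw [List.length_append, List.length_singleton, Finset.sum_range_succ]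
  congr 1
  · apply Finset.sum_congr rfl
    intro i hi
    have hi' : i < w.length := Finset.mem_range.1 hi
    rw [List.getElem?_append_left hi', List.take_append_of_le_length hi'.le,
      List.drop_append_of_le_length (Nat.succ_le_of_lt hi')]
  · rw [List.getElem?_concat_length, List.take_left' rfl]
    have hd : List.drop (w.length + 1) (w ++ [y]) = [] := by
      apply List.drop_eq_nil_of_le
      simp
    rw [hd]
    by_cases h : y = x
    · simp [h]
    · simp [h]

/-- A statistic of the initial segments is unchanged by appending a letter, up to the new
position. -/
theorem psum_snoc_left (x : α) (F : List α → ℕ) (w : List α) (y : α) :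
    psum x (fun p _ => F p) (w ++ [y]) =
      psum x (fun p _ => F p) w + if y = x then F w else 0 := by
  rw [psum_snoc]
  rfl

/-- Subwords of length two, summed over the positions of the last letter. -/
theorem subCount_two_last (a b : α) (w : List α) :
    subCount [a, b] w = psum b (fun p _ => p.count a) w := by
  induction w using List.reverseRecOn with
  | nil => rw [subCount_two_nil, psum_nil]
  | append_singleton w y ih =>
    rw [subCount_two_snoc, psum_snoc_left, ih, subCount_one]
    congr 1
    by_cases h : b = y
    · simp [h]
    · have h' : ¬ y = b := fun e => h e.symm
      simp [h, h']

/-- Subwords of length two, summed over the positions of the first letter. -/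
theorem subCount_two_first (a b : α) (w : List α) :
    subCount [a, b] w = psum a (fun _ s => s.count b) w := by
  induction w using List.reverseRecOn with
  | nil => rw [subCount_two_nil, psum_nil]
  | append_singleton w y ih =>
    rw [subCount_two_snoc, psum_snoc, ih, subCount_one]
    have h1 : ∀ i ∈ Finset.range w.length,
        (if w[i]? = some a then (w.drop (i + 1) ++ [y]).count b else 0) =
          (if w[i]? = some a then (w.drop (i + 1)).count b else 0) +
            if w[i]? = some a then (if b = y then 1 else 0) else 0 := by
      intro i _
      by_cases hi : w[i]? = some a
      · rw [if_pos hi, if_pos hi, if_pos hi, List.count_append, List.count_singleton]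
        congr 1
        by_cases h : b = y
        · simp [h]
        · have h' : ¬ y = b := fun e => h e.symm
          simp [h, h']
      · rw [if_neg hi, if_neg hi, if_neg hi]
    rw [Finset.sum_congr rfl h1, Finset.sum_add_distrib]
    have h2 : (∑ i ∈ Finset.range w.length,
        if w[i]? = some a then (if b = y then 1 else 0) else 0) =
          if b = y then w.count a else 0 := by
      by_cases h : b = y
      · simp only [h, if_true]
        have h4 : psum a (fun _ _ => 1) w = w.count a := by
          clear ih h1
          induction w using List.reverseRecOn with
          | nil => simp [psum_nil]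
          | append_singleton w z ihw =>
            rw [psum_snoc_left (F := fun _ => 1), ihw, List.count_append, List.count_singleton]
            congr 1
            by_cases hz : z = a
            · simp [hz]
            · simp [hz]
        exact h4
      · simp [h]
    rw [h2]
    have h5 : (List.count b ([] : List α)) = 0 := rfl
    simp only [psum, h5]
    simp

/-- Appending a letter to a suffix statistic that depends on the number of `c` in the suffix. -/
theorem psum_snoc_count (x c : α) (H : List α → ℕ → ℕ) (w : List α) (y : α) :
    psum x (fun p s => H p (s.count c)) (w ++ [y]) =
      (∑ i ∈ Finset.range w.length,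
        if w[i]? = some x then
          H (w.take i) ((w.drop (i + 1)).count c + if y = c then 1 else 0) else 0) +
        if y = x then H w 0 else 0 := by
  rw [psum_snoc]
  congr 1
  apply Finset.sum_congr rfl
  intro i _
  by_cases hi : w[i]? = some x
  · rw [if_pos hi, if_pos hi, List.count_append, List.count_singleton]
    congr 2
    by_cases h : y = c
    · simp [h]
    · simp [h]
  · rw [if_neg hi, if_neg hi]

theorem psum_snoc_count_ne (x c : α) (H : List α → ℕ → ℕ) (w : List α) (y : α) (hy : y ≠ c) :
    psum x (fun p s => H p (s.count c)) (w ++ [y]) =
      psum x (fun p s => H p (s.count c)) w + if y = x then H w 0 else 0 := by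
  rw [psum_snoc_count]
  simp only [if_neg hy, add_zero]
  rfl

theorem psum_snoc_count_eq (x c : α) (H : List α → ℕ → ℕ) (w : List α) :
    psum x (fun p s => H p (s.count c)) (w ++ [c]) =
      psum x (fun p s => H p (s.count c + 1)) w + if c = x then H w 0 else 0 := by
  rw [psum_snoc_count]
  simp only [if_true]
  rfl

theorem psum_add (x : α) (G H : List α → List α → ℕ) (w : List α) :
    psum x (fun p s => G p s + H p s) w = psum x G w + psum x H w := by
  unfold psum
  rw [← Finset.sum_add_distrib]
  apply Finset.sum_congr rfl
  intro i _
  by_cases hi : w[i]? = some x
  · rw [if_pos hi, if_pos hi, if_pos hi]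
  · rw [if_neg hi, if_neg hi, if_neg hi]

theorem psum_mul_left (x : α) (k : ℕ) (G : List α → List α → ℕ) (w : List α) :
    psum x (fun p s => k * G p s) w = k * psum x G w := by
  unfold psum
  rw [Finset.mul_sum]
  apply Finset.sum_congr rfl
  intro i _
  by_cases hi : w[i]? = some x
  · rw [if_pos hi, if_pos hi]
  · rw [if_neg hi, if_neg hi, mul_zero]

theorem psum_congr (x : α) (G H : List α → List α → ℕ) (w : List α)
    (h : ∀ i, i < w.length → w[i]? = some x →
      G (w.take i) (w.drop (i + 1)) = H (w.take i) (w.drop (i + 1))) :
    psum x G w = psum x H w := by
  unfold psum
  apply Finset.sum_congr rfl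
  intro i hi
  by_cases hx : w[i]? = some x
  · rw [if_pos hx, if_pos hx, h i (Finset.mem_range.1 hi) hx]
  · rw [if_neg hx, if_neg hx]

/-- The number of positions carrying `x`. -/
theorem psum_one (x : α) (w : List α) : psum x (fun _ _ => 1) w = w.count x := by
  induction w using List.reverseRecOn with
  | nil => simp [psum_nil]
  | append_singleton w z ihw =>
    rw [psum_snoc_left (F := fun _ => 1), ihw, List.count_append, List.count_singleton]
    congr 1
    by_cases hz : z = x
    · simp [hz]
    · simp [hz]

/-- Subwords `aa`. -/
theorem subCount_two_same (a : α) (w : List α) : subCount [a, a] w = (w.count a).choose 2 := by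
  induction w using List.reverseRecOn with
  | nil => simp [subCount_two_nil]
  | append_singleton w y ih =>
    rw [subCount_two_snoc, ih, subCount_one, List.count_append, List.count_singleton]
    by_cases h : a = y
    · subst h
      simp only [if_true, beq_self_eq_true]
      rw [Nat.choose_succ_succ', Nat.choose_one_right]
      ring
    · have h' : ¬ y = a := fun e => h e.symm
      simp [h, h']

/-- Subwords `aaa`. -/
theorem subCount_three_same (a : α) (w : List α) :
    subCount [a, a, a] w = (w.count a).choose 3 := by
  induction w using List.reverseRecOn with
  | nil => simp [subCount_three_nil]
  | append_singleton w y ih =>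
    rw [subCount_three_snoc, ih, subCount_two_same, List.count_append, List.count_singleton]
    by_cases h : a = y
    · subst h
      simp only [if_true, beq_self_eq_true]
      rw [Nat.choose_succ_succ' _ 2]
      ring
    · have h' : ¬ y = a := fun e => h e.symm
      simp [h, h']

/-- Subwords `aab`, summed over the positions of the last letter. -/
theorem subCount_three_last (a b : α) (w : List α) :
    subCount [a, a, b] w = psum b (fun p _ => (p.count a).choose 2) w := by
  induction w using List.reverseRecOn with
  | nil => rw [subCount_three_nil, psum_nil]
  | append_singleton w y ih =>
    rw [subCount_three_snoc, psum_snoc_left, ih, subCount_two_same]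
    congr 1
    by_cases h : b = y
    · simp [h]
    · have h' : ¬ y = b := fun e => h e.symm
      simp [h, h']

/-- Subwords of length three, summed over the positions of the middle letter. -/
theorem subCount_three_mid (a b c : α) (w : List α) :
    subCount [a, b, c] w = psum b (fun p s => p.count a * s.count c) w := by
  induction w using List.reverseRecOn with
  | nil => rw [subCount_three_nil, psum_nil]
  | append_singleton w y ih =>
    rw [subCount_three_snoc, ih, subCount_two_last]
    by_cases h : c = y
    · subst h
      rw [if_pos rfl, psum_snoc_count_eq b c (fun p n => p.count a * n)]
      have e : psum b (fun p s => p.count a * (s.count c + 1)) w =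
          psum b (fun p s => p.count a * s.count c) w + psum b (fun p _ => p.count a) w := by
        rw [← psum_add]
        apply psum_congr
        intro i _ _
        ring
      rw [e]
      simp
    · have h' : y ≠ c := fun e => h e.symm
      rw [if_neg h, psum_snoc_count_ne b c (fun p n => p.count a * n) w y h']
      simp

/-- Subwords `abb`, summed over the positions of the first letter. -/
theorem subCount_three_first (a b : α) (w : List α) :
    subCount [a, b, b] w = psum a (fun _ s => (s.count b).choose 2) w := by
  induction w using List.reverseRecOn with
  | nil => rw [subCount_three_nil, psum_nil]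
  | append_singleton w y ih =>
    rw [subCount_three_snoc, ih, subCount_two_first]
    by_cases h : b = y
    · subst h
      rw [if_pos rfl, psum_snoc_count_eq a b (fun _ n => n.choose 2)]
      have e : psum a (fun _ s => (s.count b + 1).choose 2) w =
          psum a (fun _ s => (s.count b).choose 2) w + psum a (fun _ s => s.count b) w := by
        rw [← psum_add]
        apply psum_congr
        intro i _ _
        rw [Nat.choose_succ_succ', Nat.choose_one_right]
        ring
      rw [e]
      simp
    · have h' : y ≠ b := fun e => h e.symm
      rw [if_neg h, psum_snoc_count_ne a b (fun _ n => n.choose 2) w y h']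
      simp

/-- Splitting the occurrences of a letter at a position carrying another letter. -/
theorem count_take_add_drop (w : List α) (i : ℕ) (x c : α) (hi : w[i]? = some x) (hxc : x ≠ c) :
    (w.take i).count c + (w.drop (i + 1)).count c = w.count c := by
  have hlt : i < w.length := by
    by_contra hcon
    rw [List.getElem?_eq_none (Nat.le_of_not_lt hcon)] at hi
    exact absurd hi (by simp)
  have hget : w[i] = x := by
    rw [List.getElem?_eq_getElem hlt] at hi
    exact Option.some.inj hi
  have hw : w = w.take i ++ x :: w.drop (i + 1) := by
    rw [← hget, List.getElem_cons_drop, List.take_append_drop]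
  conv_rhs => rw [hw]
  rw [List.count_append, List.count_cons]
  simp [hxc]

end Vale.Agent.H72
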