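import Vale.Agent.H72.GSH3.C3Comm
import Vale.Agent.H72.GSH3.CProd
import Vale.Agent.H72.GSH3.Subword

/-!
# Removing one letter in a group of class at most three (board task G3-STEP)

EXACT statement to prove (do not change it): `class3_step`. Use the files C3Comm and CProd as
black boxes (they are proved by other seats) and the file Subword (proved).

Setting: `G` finite group with all commutators `⁅⁅⁅a, b⁆, c⁆, d⁆` trivial, `φ : α → G`, a letter
`a`, `g := φ a`. For a word `w` put `N w := w.count a`,
`P w := ((w.filter (· ≠ a)).map φ).prod` (the word with the letter `a` erased) and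
`X w := (w.map φ).prod * (g ^ N w)⁻¹ * (P w)⁻¹`, so that `(w.map φ).prod = X w * P w * g ^ N w`.
Claim: `X w` is determined by the numbers `subCount u w` (`|u| ≤ 3`) modulo `Fintype.card G`.
Checked numerically in the group of unitriangular 4 x 4 matrices over `ZMod 8`.

Proof sketch.
1. Recursion (from `c3_step` with `P := P w`, `h := φ y`, `N := N w`):
   `X (w ++ [a]) = X w`, and for `y ≠ a`
   `X (w ++ [y]) = X w * (⁅g, φ y⁆ ^ N w * ⁅g, ⁅g, φ y⁆⁆ ^ (N w).choose 2 * ⁅P w, ⁅g, φ y⁆⁆ ^ N w)`.
2. Closed form: `X w = cprod tC (EC w) * cprod tD (ED w) * cprod tE (EE w)` (file CProd) with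
   `tC y := ⁅g, φ y⁆`, `EC w y := if y = a then 0 else subCount [a, y] w`,
   `tD y := ⁅g, ⁅g, φ y⁆⁆`, `ED w y := if y = a then 0 else subCount [a, a, y] w`,
   `tE (z, y) := ⁅φ z, ⁅g, φ y⁆⁆` (index type `α × α`),
   `EE w (z, y) := if z = a ∨ y = a then 0 else subCount [a, z, y] w + subCount [z, a, y] w`.
   All these elements commute with each other (`c3_comm2`; `tD`, `tE` are central by
   `c3_central'`). Induction on `w` from the right (`List.reverseRecOn`):
   * the exponents change as follows (`subCount_two_snoc`, `subCount_three_snoc`,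
     `subCount_one`, `subCount_two_same`): appending `a` changes nothing; appending `y ≠ a` adds
     `N w` to `EC w y`, `(N w).choose 2` to `ED w y` and `N w * w.count z` to `EE w (z, y)` for
     `z ≠ a`, because `subCount [a, z] w + subCount [z, a] w = w.count a * w.count z` for `z ≠ a`
     (induction from the right);
   * `cprod_add`, `cprod_single` absorb the new factors; for the last one,
     `⁅P w, ⁅g, φ y⁆⁆ = ((w.filter (· ≠ a)).map fun z => tE (z, y)).prod` (`c3_bracket_list`)
     `= cprod tE (fun i => (((w.filter (· ≠ a)).map fun z => (z, y))).count i)` (`cprod_list`),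
     its `N w`-th power is given by `cprod_pow`, and the count of `(z, y')` in that list is
     `w.count z` if `y' = y` and `z ≠ a`, and `0` otherwise.
3. If the subword counts of `w` and `w'` agree modulo `Fintype.card G`, the exponents agree
   modulo `Fintype.card G`, so the three products agree (`cprod_congr_mod`).
-/

namespace Vale.Agent.H72

open scoped commutatorElement

universe u

section G3Step

variable {α : Type u} [Fintype α] [DecidableEq α] {G : Type*} [Group G]

/-- The element `X w` of the file header. -/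
def g3step_X (φ : α → G) (a : α) (w : List α) : G :=
  (w.map φ).prod * ((φ a) ^ w.count a)⁻¹ * (((w.filter (fun y => y ≠ a)).map φ).prod)⁻¹

/-- Exponents of the commutators `⁅g, φ y⁆`. -/
def g3step_EC (a : α) (w : List α) (y : α) : ℕ := if y = a then 0 else subCount [a, y] w

/-- Exponents of the commutators `⁅g, ⁅g, φ y⁆⁆`. -/
def g3step_ED (a : α) (w : List α) (y : α) : ℕ := if y = a then 0 else subCount [a, a, y] w

/-- Exponents of the commutators `⁅φ z, ⁅g, φ y⁆⁆`. -/
def g3step_EE (a : α) (w : List α) (p : α × α) : ℕ :=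
  if p.1 = a ∨ p.2 = a then 0 else subCount [a, p.1, p.2] w + subCount [p.1, a, p.2] w

omit [Fintype α] in
theorem g3step_X_nil (φ : α → G) (a : α) : g3step_X φ a [] = 1 := by
  simp [g3step_X]

omit [Fintype α] in
theorem g3step_X_snoc_same (φ : α → G) (a : α) (w : List α) :
    g3step_X φ a (w ++ [a]) = g3step_X φ a w := by
  unfold g3step_X
  have hf : List.filter (fun y => decide (y ≠ a)) (w ++ [a]) =
      List.filter (fun y => decide (y ≠ a)) w := by
    rw [List.filter_append]
    simp
  rw [hf, List.map_append, List.prod_append, List.count_append, List.count_singleton_self,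
    List.map_singleton, List.prod_singleton, pow_succ]
  group

omit [Fintype α] in
theorem g3step_X_snoc_ne (h3 : ∀ a b c d : G, ⁅⁅⁅a, b⁆, c⁆, d⁆ = 1) (φ : α → G) (a : α)
    (w : List α) (y : α) (hy : y ≠ a) :
    g3step_X φ a (w ++ [y]) = g3step_X φ a w *
      (⁅φ a, φ y⁆ ^ w.count a * ⁅φ a, ⁅φ a, φ y⁆⁆ ^ (w.count a).choose 2 *
        ⁅((w.filter (fun z => z ≠ a)).map φ).prod, ⁅φ a, φ y⁆⁆ ^ w.count a) := by
  unfold g3step_X
  have hf : List.filter (fun z => decide (z ≠ a)) (w ++ [y]) =
      List.filter (fun z => decide (z ≠ a)) w ++ [y] := by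
    rw [List.filter_append]
    simp [hy]
  have hcnt : List.count a (w ++ [y]) = List.count a w := by
    rw [List.count_append, List.count_singleton]
    simp [hy]
  rw [hf, hcnt, List.map_append, List.prod_append, List.map_append, List.prod_append,
    List.map_singleton, List.prod_singleton]
  have hC := c3_step h3 ((List.map φ (List.filter (fun z => decide (z ≠ a)) w)).prod) (φ a) (φ y)
    (List.count a w)
  generalize (List.map φ (List.filter (fun z => decide (z ≠ a)) w)).prod = P at hC ⊢
  generalize (List.map φ w).prod = W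
  generalize φ a ^ List.count a w = gN at hC ⊢
  generalize ⁅φ a, φ y⁆ ^ List.count a w * ⁅φ a, ⁅φ a, φ y⁆⁆ ^ (List.count a w).choose 2 *
    ⁅P, ⁅φ a, φ y⁆⁆ ^ List.count a w = C at hC ⊢
  have hC' : C = P * gN * φ y * gN⁻¹ * (P * φ y)⁻¹ := by
    rw [hC]
    group
  rw [hC']
  group

omit [Fintype α] in
theorem g3step_two_sym (a z : α) (hz : z ≠ a) (w : List α) :
    subCount [a, z] w + subCount [z, a] w = w.count a * w.count z := by
  induction w using List.reverseRecOn with
  | nil => simp [subCount_two_nil]
  | append_singleton w x ih =>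
    rw [subCount_two_snoc, subCount_two_snoc, subCount_one, subCount_one, List.count_append,
      List.count_append, List.count_singleton, List.count_singleton]
    by_cases hxa : x = a
    · subst hxa
      have h1 : ¬ z = x := hz
      have h2 : ¬ x = z := fun e => hz e.symm
      simp only [h1, h2, if_false, if_true, beq_self_eq_true, beq_iff_eq, add_zero]
      nlinarith [ih]
    · by_cases hxz : x = z
      · subst hxz
        have h1 : ¬ a = x := fun e => hxa e.symm
        simp only [h1, hxa, if_false, if_true, beq_self_eq_true, beq_iff_eq, add_zero]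
        nlinarith [ih]
      · have h1 : ¬ a = x := fun e => hxa e.symm
        have h2 : ¬ z = x := fun e => hxz e.symm
        simp only [h1, h2, hxa, hxz, if_false, beq_iff_eq, add_zero]
        exact ih

/-- The number of occurrences of the pair `p` in the list of the pairs `(z, y)`, `z` running
through the letters of `w` different from `a`. -/
def g3step_cnt (a y : α) (w : List α) (p : α × α) : ℕ :=
  @List.count (α × α) instBEqOfDecidableEq p ((w.filter (fun z => z ≠ a)).map fun z => (z, y))

omit [Fintype α] in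
theorem g3step_count_pair (a y : α) (w : List α) (p : α × α) :
    g3step_cnt a y w p = if p.2 = y ∧ p.1 ≠ a then w.count p.1 else 0 := by
  unfold g3step_cnt
  obtain ⟨z, y'⟩ := p
  by_cases hy : y' = y
  · subst hy
    have hinj : Function.Injective (fun z : α => (z, y')) := fun z1 z2 e => (Prod.mk.inj e).1
    rw [@List.count_map_of_injective α (α × α) _ _ instBEqOfDecidableEq _
      (List.filter (fun z => decide (z ≠ a)) w) (fun z => (z, y')) hinj z]
    by_cases hz : z = a
    · subst hz
      simp only [ne_eq, not_true_eq_false, and_false, if_false]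
      apply List.count_eq_zero.2
      intro hmem
      have := (List.mem_filter.1 hmem).2
      simp at this
    · simp only [ne_eq, hz, not_false_eq_true, and_self, if_true]
      apply List.count_filter
      simp [hz]
  · have hne : ¬ (y' = y ∧ z ≠ a) := fun e => hy e.1
    simp only [hne, if_false]
    apply (@List.count_eq_zero (α × α) instBEqOfDecidableEq _ (z, y') _).2
    intro hmem
    obtain ⟨z', _, hz'⟩ := List.mem_map.1 hmem
    exact hy (Prod.mk.inj hz').2.symm

omit [Fintype α] in
theorem g3step_EC_nil (a : α) : g3step_EC a [] = fun _ => 0 := by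
  funext y
  simp [g3step_EC, subCount_two_nil]

omit [Fintype α] in
theorem g3step_ED_nil (a : α) : g3step_ED a [] = fun _ => 0 := by
  funext y
  simp [g3step_ED, subCount_three_nil]

omit [Fintype α] in
theorem g3step_EE_nil (a : α) : g3step_EE a [] = fun _ => 0 := by
  funext p
  simp [g3step_EE, subCount_three_nil]

omit [Fintype α] in
theorem g3step_EC_snoc_same (a : α) (w : List α) : g3step_EC a (w ++ [a]) = g3step_EC a w := by
  funext y
  unfold g3step_EC
  by_cases hy : y = a
  · rw [if_pos hy, if_pos hy]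
  · rw [if_neg hy, if_neg hy, subCount_two_snoc, if_neg hy, add_zero]

omit [Fintype α] in
theorem g3step_ED_snoc_same (a : α) (w : List α) : g3step_ED a (w ++ [a]) = g3step_ED a w := by
  funext y
  unfold g3step_ED
  by_cases hy : y = a
  · rw [if_pos hy, if_pos hy]
  · rw [if_neg hy, if_neg hy, subCount_three_snoc, if_neg hy, add_zero]

omit [Fintype α] in
theorem g3step_EE_snoc_same (a : α) (w : List α) : g3step_EE a (w ++ [a]) = g3step_EE a w := by
  funext p
  unfold g3step_EE
  by_cases hp : p.1 = a ∨ p.2 = a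
  · rw [if_pos hp, if_pos hp]
  · have hy : ¬ p.2 = a := fun e => hp (Or.inr e)
    rw [if_neg hp, if_neg hp, subCount_three_snoc, subCount_three_snoc, if_neg hy, add_zero,
      if_neg hy, add_zero]

omit [Fintype α] in
theorem g3step_EC_snoc_ne (a : α) (w : List α) (y : α) (hy : y ≠ a) :
    g3step_EC a (w ++ [y]) = fun i => g3step_EC a w i + if i = y then w.count a else 0 := by
  funext i
  unfold g3step_EC
  by_cases hi : i = a
  · have hiy : ¬ i = y := fun e => hy (e ▸ hi)
    rw [if_pos hi, if_pos hi, if_neg hiy]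
  · rw [if_neg hi, if_neg hi, subCount_two_snoc, subCount_one]

omit [Fintype α] in
theorem g3step_ED_snoc_ne (a : α) (w : List α) (y : α) (hy : y ≠ a) :
    g3step_ED a (w ++ [y]) =
      fun i => g3step_ED a w i + if i = y then (w.count a).choose 2 else 0 := by
  funext i
  unfold g3step_ED
  by_cases hi : i = a
  · have hiy : ¬ i = y := fun e => hy (e ▸ hi)
    rw [if_pos hi, if_pos hi, if_neg hiy]
  · rw [if_neg hi, if_neg hi, subCount_three_snoc, subCount_two_same]

omit [Fintype α] in
theorem g3step_EE_snoc_ne (a : α) (w : List α) (y : α) (hy : y ≠ a) :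
    g3step_EE a (w ++ [y]) = fun p => g3step_EE a w p + w.count a * g3step_cnt a y w p := by
  funext p
  rw [g3step_count_pair]
  unfold g3step_EE
  by_cases hp : p.1 = a ∨ p.2 = a
  · have hne : ¬ (p.2 = y ∧ p.1 ≠ a) := by
      rintro ⟨e1, e2⟩
      rcases hp with hp | hp
      · exact e2 hp
      · exact hy (e1 ▸ hp)
    rw [if_pos hp, if_pos hp, if_neg hne, mul_zero, add_zero]
  · have h1 : ¬ p.1 = a := fun e => hp (Or.inl e)
    rw [if_neg hp, if_neg hp, subCount_three_snoc, subCount_three_snoc]
    by_cases hpy : p.2 = y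
    · have hyes : p.2 = y ∧ p.1 ≠ a := ⟨hpy, h1⟩
      rw [if_pos hpy, if_pos hpy, if_pos hyes, ← g3step_two_sym a p.1 h1 w]
      ring
    · have hne : ¬ (p.2 = y ∧ p.1 ≠ a) := fun e => hpy e.1
      rw [if_neg hpy, if_neg hpy, if_neg hne]
      ring

omit [Fintype α] [DecidableEq α] in
theorem g3step_shuffle (A B C c d q : G) (hB : ∀ x, B * x = x * B) (hC : ∀ x, C * x = x * C) :
    A * B * C * (c * d * q) = (A * c) * (B * d) * (C * q) := by
  have h1 : B * C * c = c * B * C := by
    rw [mul_assoc, hC c, ← mul_assoc, hB c]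
  have h2 : C * d = d * C := hC d
  calc A * B * C * (c * d * q) = A * (B * C * c) * d * q := by group
    _ = A * (c * B * C) * d * q := by rw [h1]
    _ = A * c * B * (C * d) * q := by group
    _ = A * c * B * (d * C) * q := by rw [h2]
    _ = (A * c) * (B * d) * (C * q) := by group

/-- The closed form of `X w`. -/
theorem g3step_closed (h3 : ∀ a b c d : G, ⁅⁅⁅a, b⁆, c⁆, d⁆ = 1) (φ : α → G) (a : α)
    (w : List α) :
    g3step_X φ a w =
      cprod (fun y => ⁅φ a, φ y⁆) (g3step_EC a w) *
        cprod (fun y => ⁅φ a, ⁅φ a, φ y⁆⁆) (g3step_ED a w) *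
        cprod (fun p : α × α => ⁅φ p.1, ⁅φ a, φ p.2⁆⁆) (g3step_EE a w) := by
  have hcC : ∀ i j : α, ⁅φ a, φ i⁆ * ⁅φ a, φ j⁆ = ⁅φ a, φ j⁆ * ⁅φ a, φ i⁆ :=
    fun i j => c3_comm2 h3 _ _ _ _
  have hcD : ∀ (i : α) (x : G), ⁅φ a, ⁅φ a, φ i⁆⁆ * x = x * ⁅φ a, ⁅φ a, φ i⁆⁆ :=
    fun i x => c3_central' h3 _ _ _ x
  have hcE : ∀ (p : α × α) (x : G),
      ⁅φ p.1, ⁅φ a, φ p.2⁆⁆ * x = x * ⁅φ p.1, ⁅φ a, φ p.2⁆⁆ :=
    fun p x => c3_central' h3 _ _ _ x
  induction w using List.reverseRecOn with
  | nil =>
    rw [g3step_X_nil, g3step_EC_nil, g3step_ED_nil, g3step_EE_nil, cprod_zero, cprod_zero,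
      cprod_zero, mul_one, mul_one]
  | append_singleton w y ih =>
    by_cases hy : y = a
    · subst hy
      rw [g3step_X_snoc_same, g3step_EC_snoc_same, g3step_ED_snoc_same, g3step_EE_snoc_same, ih]
    · rw [g3step_X_snoc_ne h3 φ a w y hy, ih, g3step_EC_snoc_ne a w y hy,
        g3step_ED_snoc_ne a w y hy, g3step_EE_snoc_ne a w y hy,
        cprod_add _ hcC, cprod_add _ (fun i j => hcD i _), cprod_add _ (fun i j => hcE i _),
        cprod_single, cprod_single]
      have hE : cprod (fun p : α × α => ⁅φ p.1, ⁅φ a, φ p.2⁆⁆)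
          (fun p => w.count a * g3step_cnt a y w p) =
          ⁅((w.filter (fun z => z ≠ a)).map φ).prod, ⁅φ a, φ y⁆⁆ ^ w.count a := by
        have k1 := cprod_pow (fun p : α × α => ⁅φ p.1, ⁅φ a, φ p.2⁆⁆) (fun i j => hcE i _)
          (g3step_cnt a y w) (w.count a)
        have k2 := cprod_list (fun p : α × α => ⁅φ p.1, ⁅φ a, φ p.2⁆⁆) (fun i j => hcE i _)
          ((w.filter (fun z => z ≠ a)).map fun z => (z, y))
        have k3 := c3_bracket_list h3 φ (w.filter (fun z => z ≠ a)) (φ a) (φ y)
        rw [← k1]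
        have k4 : cprod (fun p : α × α => ⁅φ p.1, ⁅φ a, φ p.2⁆⁆) (g3step_cnt a y w) =
            ⁅((w.filter (fun z => z ≠ a)).map φ).prod, ⁅φ a, φ y⁆⁆ := by
          rw [k3]
          rw [List.map_map] at k2
          exact k2.symm
        rw [k4]
      rw [hE]
      exact g3step_shuffle _ _ _ _ _ _ (fun x => cprod_commute _ _ x (fun i => hcD i x))
        (fun x => cprod_commute _ _ x (fun i => hcE i x))

end G3Step

theorem class3_step {α : Type u} [Fintype α] [DecidableEq α] {G : Type*} [Group G] [Fintype G]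
    (h3 : ∀ a b c d : G, ⁅⁅⁅a, b⁆, c⁆, d⁆ = 1) (φ : α → G) (a : α) (w w' : List α)
    (hdet : ∀ u : List α, u.length ≤ 3 →
      subCount u w ≡ subCount u w' [MOD Fintype.card G]) :
    (w.map φ).prod * ((φ a) ^ w.count a)⁻¹ * (((w.filter (fun y => y ≠ a)).map φ).prod)⁻¹ =
      (w'.map φ).prod * ((φ a) ^ w'.count a)⁻¹ *
        (((w'.filter (fun y => y ≠ a)).map φ).prod)⁻¹ := by
  have e1 := g3step_closed h3 φ a w
  have e2 := g3step_closed h3 φ a w'
  unfold g3step_X at e1 e2
  rw [e1, e2]
  have hEC : ∀ i, g3step_EC a w i ≡ g3step_EC a w' i [MOD Fintype.card G] := by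
    intro i
    unfold g3step_EC
    by_cases hi : i = a
    · rw [if_pos hi, if_pos hi]
    · rw [if_neg hi, if_neg hi]
      exact hdet [a, i] (by simp)
  have hED : ∀ i, g3step_ED a w i ≡ g3step_ED a w' i [MOD Fintype.card G] := by
    intro i
    unfold g3step_ED
    by_cases hi : i = a
    · rw [if_pos hi, if_pos hi]
    · rw [if_neg hi, if_neg hi]
      exact hdet [a, a, i] (by simp)
  have hEE : ∀ p, g3step_EE a w p ≡ g3step_EE a w' p [MOD Fintype.card G] := by
    intro p
    unfold g3step_EE
    by_cases hp : p.1 = a ∨ p.2 = a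
    · rw [if_pos hp, if_pos hp]
    · rw [if_neg hp, if_neg hp]
      exact Nat.ModEq.add (hdet [a, p.1, p.2] (by simp)) (hdet [p.1, a, p.2] (by simp))
  rw [cprod_congr_mod _ _ _ hEC, cprod_congr_mod _ _ _ hED, cprod_congr_mod _ _ _ hEE]

end Vale.Agent.H72
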