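import Vale.Agent.H72.GSH3.SubThree
import Vale.Agent.H72.GSH3.C3Step

/-!
# Finite nilpotent groups of class at most three

Every language recognized by a finite group in which all commutators `⁅⁅⁅a, b⁆, c⁆, d⁆` are
trivial (a nilpotent group of class at most three) has generalized star height at most one
(`hasGSH_group_class3`, `hasGSH_group_nilpotent3`).
-/

namespace Vale.Agent.H72

open Vale.Agent.H88 Language

open scoped commutatorElement

universe u

variable {α : Type u} [DecidableEq α]

theorem subCount_nil_right (u : List α) : subCount u [] = if u = [] then 1 else 0 := by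
  unfold subCount
  rw [List.sublists_nil, List.count_singleton]
  by_cases h : u = []
  · simp [h]
  · simp [h]

/-- Subword counts of a word with some letters erased. -/
theorem subCount_filter (p : α → Bool) (w : List α) :
    ∀ u : List α, subCount u (w.filter p) = if (∀ x ∈ u, p x = true) then subCount u w else 0 := by
  induction w using List.reverseRecOn with
  | nil =>
    intro u
    rw [List.filter_nil, subCount_nil_right]
    by_cases h : u = []
    · subst h
      simp
    · simp [h]
  | append_singleton w y ih =>
    intro u
    rcases List.eq_nil_or_concat u with rfl | ⟨u', x, rfl⟩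
    · simp [subCount_nil_left]
    · rw [List.concat_eq_append, List.filter_append]
      by_cases hy : p y = true
      · have hf : List.filter p [y] = [y] := by simp [hy]
        rw [hf, subCount_snoc_snoc, subCount_snoc_snoc, ih (u' ++ [x]), ih u']
        by_cases hxy : x = y
        · subst hxy
          have e : (∀ z ∈ u' ++ [x], p z = true) ↔ (∀ z ∈ u', p z = true) := by
            constructor
            · intro h z hz
              exact h z (List.mem_append_left _ hz)
            · intro h z hz
              rcases List.mem_append.1 hz with hz | hz
              · exact h z hz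
              · rw [List.mem_singleton.1 hz]
                exact hy
          by_cases hall : ∀ z ∈ u', p z = true
          · simp only [if_pos (e.2 hall), if_pos hall, if_true]
          · simp only [if_neg (fun h => hall (e.1 h)), if_neg hall, if_true, add_zero]
        · simp only [if_neg hxy, add_zero]
      · have hf : List.filter p [y] = [] := by simp [hy]
        rw [hf, List.append_nil, ih (u' ++ [x]), subCount_snoc_snoc]
        by_cases hall : ∀ z ∈ u' ++ [x], p z = true
        · have hxy : x ≠ y := by
            intro e
            apply hy
            rw [← e]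
            exact hall x (List.mem_append_right _ (List.mem_singleton.2 rfl))
          simp only [if_pos hall, if_neg hxy, add_zero]
        · simp only [if_neg hall]

/-- In a finite group of class at most three, the product of the images of the letters of a
word is determined by the subword counts of length at most three modulo the order of the
group. -/
theorem class3_det {G : Type*} [Group G] [Fintype G]
    (h3 : ∀ a b c d : G, ⁅⁅⁅a, b⁆, c⁆, d⁆ = 1) (φ : α → G) [Fintype α] :
    ∀ (s : Finset α) (w w' : List α), (∀ x ∈ w, x ∈ s) → (∀ x ∈ w', x ∈ s) →
      (∀ u : List α, u.length ≤ 3 → subCount u w ≡ subCount u w' [MOD Fintype.card G]) →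
      (w.map φ).prod = (w'.map φ).prod := by
  intro s
  induction s using Finset.induction_on with
  | empty =>
    intro w w' hw hw' _
    have e1 : w = [] := List.eq_nil_iff_forall_not_mem.2 fun x hx => by simpa using hw x hx
    have e2 : w' = [] := List.eq_nil_iff_forall_not_mem.2 fun x hx => by simpa using hw' x hx
    rw [e1, e2]
  | insert a s _ ih =>
    intro w w' hw hw' hdet
    have hfil : ∀ v : List α, (∀ x ∈ v, x ∈ insert a s) →
        ∀ x ∈ v.filter (fun y => y ≠ a), x ∈ s := by
      intro v hv x hx
      rw [List.mem_filter] at hx
      have hxa : x ≠ a := by simpa using hx.2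
      rcases Finset.mem_insert.1 (hv x hx.1) with h | h
      · exact absurd h hxa
      · exact h
    have hdet' : ∀ u : List α, u.length ≤ 3 →
        subCount u (w.filter (fun y => y ≠ a)) ≡ subCount u (w'.filter (fun y => y ≠ a))
          [MOD Fintype.card G] := by
      intro u hu
      rw [subCount_filter, subCount_filter]
      by_cases hall : ∀ x ∈ u, (decide (x ≠ a)) = true
      · rw [if_pos hall, if_pos hall]
        exact hdet u hu
      · rw [if_neg hall, if_neg hall]
    have hP := ih (w.filter (fun y => y ≠ a)) (w'.filter (fun y => y ≠ a)) (hfil w hw)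
      (hfil w' hw') hdet'
    have hX := class3_step h3 φ a w w' hdet
    have hN : (φ a) ^ w.count a = (φ a) ^ w'.count a := by
      rw [pow_eq_pow_iff_modEq]
      have h1 := hdet [a] (by simp)
      rw [subCount_one, subCount_one] at h1
      exact Nat.ModEq.of_dvd orderOf_dvd_card h1
    have key : ∀ v : List α, (v.map φ).prod =
        ((v.map φ).prod * ((φ a) ^ v.count a)⁻¹ *
          (((v.filter (fun y => y ≠ a)).map φ).prod)⁻¹) *
          ((v.filter (fun y => y ≠ a)).map φ).prod * (φ a) ^ v.count a := by
      intro v
      group
    rw [key w, key w', hX, hP, hN]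

/-- **Nilpotent groups of class at most three.** Every language recognized by a finite group
all of whose commutators `⁅⁅⁅a, b⁆, c⁆, d⁆` are trivial has generalized star height at most
one. -/
theorem hasGSH_group_class3 {α : Type u} [Fintype α] {G : Type*} [Group G] [Fintype G]
    (h3 : ∀ a b c d : G, ⁅⁅⁅a, b⁆, c⁆, d⁆ = 1) (φ : α → G) (S : Set G) :
    HasGSH ({w | (w.map φ).prod ∈ S} : Language α) 1 := by
  classical
  refine hasGSH_of_subCount3 (Fintype.card G) Fintype.card_pos _ ?_
  intro w w' h hw
  have e := class3_det h3 φ Finset.univ w w' (fun x _ => Finset.mem_univ x)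
    (fun x _ => Finset.mem_univ x) h
  change (w'.map φ).prod ∈ S
  rw [← e]
  exact hw

/-- The same statement for Mathlib's nilpotency class. -/
theorem hasGSH_group_nilpotent3 {α : Type u} [Fintype α] {G : Type*} [Group G] [Fintype G]
    [Group.IsNilpotent G] (hc : Group.nilpotencyClass G ≤ 3) (φ : α → G) (S : Set G) :
    HasGSH ({w | (w.map φ).prod ∈ S} : Language α) 1 := by
  have hbot : Subgroup.lowerCentralSeries (⊤ : Subgroup G) 3 = ⊥ :=
    Subgroup.lowerCentralSeries_eq_bot_iff_nilpotencyClass_le.2 hc
  refine hasGSH_group_class3 ?_ φ S
  intro a b c d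
  have h1 : ⁅a, b⁆ ∈ Subgroup.lowerCentralSeries (⊤ : Subgroup G) 1 :=
    Subgroup.commutator_mem_commutator (Subgroup.mem_top a) (Subgroup.mem_top b)
  have h2 : ⁅⁅a, b⁆, c⁆ ∈ Subgroup.lowerCentralSeries (⊤ : Subgroup G) 2 :=
    Subgroup.commutator_mem_commutator h1 (Subgroup.mem_top c)
  have h4 : ⁅⁅⁅a, b⁆, c⁆, d⁆ ∈ Subgroup.lowerCentralSeries (⊤ : Subgroup G) 3 :=
    Subgroup.commutator_mem_commutator h2 (Subgroup.mem_top d)
  rw [hbot] at h4
  exact Subgroup.mem_bot.1 h4

end Vale.Agent.H72
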