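import Vale.Agent.H88.Odometer

/-!
# Inverse images under letter-to-letter maps

The inverse image `{w | w.map f ∈ L}` of a language under a map `f` between alphabets has
generalized star height at most that of `L` (the source alphabet being finite).
-/

namespace Vale.Agent.H72

open Vale.Agent.H88 Language

universe u v

variable {α : Type u} {β : Type v}

/-- The inverse image of a language under the letter-to-letter map `f`. -/
def comapLang (f : α → β) (L : Language β) : Language α := {w | w.map f ∈ L}

theorem mem_comapLang {f : α → β} {L : Language β} {w : List α} :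
    w ∈ comapLang f L ↔ w.map f ∈ L := Iff.rfl

theorem comapLang_zero (f : α → β) : comapLang f (0 : Language β) = 0 := by
  ext w
  rw [mem_comapLang]
  exact Iff.rfl

theorem comapLang_one (f : α → β) : comapLang f (1 : Language β) = 1 := by
  ext w
  rw [mem_comapLang, Language.mem_one, Language.mem_one]
  exact List.map_eq_nil_iff

theorem comapLang_char (f : α → β) (b : β) :
    comapLang f ({[b]} : Language β) = ⨆ a : α, ⨆ (_ : f a = b), ({[a]} : Language α) := by
  ext w
  rw [mem_comapLang, Language.mem_iSup]
  constructor
  · intro h
    have h' : w.map f = [b] := h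
    match w, h' with
    | [a], h' =>
      refine ⟨a, ?_⟩
      have hab : f a = b := by simpa using h'
      simp only [hab, iSup_pos]
      exact rfl
  · rintro ⟨a, ha⟩
    by_cases hab : f a = b
    · simp only [hab, iSup_pos] at ha
      have hw : w = [a] := ha
      rw [hw]
      change [f a] = [b]
      rw [hab]
    · simp only [hab, iSup_neg, not_false_eq_true] at ha
      exact absurd ha (by intro h; exact h)

theorem comapLang_add (f : α → β) (L K : Language β) :
    comapLang f (L + K) = comapLang f L + comapLang f K := by
  ext w
  exact Iff.rfl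

theorem comapLang_mul (f : α → β) (L K : Language β) :
    comapLang f (L * K) = comapLang f L * comapLang f K := by
  ext w
  rw [mem_comapLang, Language.mem_mul, Language.mem_mul]
  constructor
  · rintro ⟨u, hu, v, hv, huv⟩
    obtain ⟨w₁, w₂, rfl, h1, h2⟩ := List.map_eq_append_iff.1 huv.symm
    exact ⟨w₁, by rw [mem_comapLang, h1]; exact hu, w₂, by rw [mem_comapLang, h2]; exact hv, rfl⟩
  · rintro ⟨w₁, h1, w₂, h2, rfl⟩
    exact ⟨w₁.map f, h1, w₂.map f, h2, by rw [List.map_append]⟩

theorem comapLang_compl (f : α → β) (L : Language β) :
    comapLang f Lᶜ = (comapLang f L)ᶜ := by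
  ext w
  exact Iff.rfl

/-- A word whose image is a concatenation is a concatenation of words with these images. -/
theorem exists_flatten_of_map (f : α → β) :
    ∀ (S : List (List β)) (w : List α), w.map f = S.flatten →
      ∃ S' : List (List α), w = S'.flatten ∧ S'.map (List.map f) = S
  | [], w, h => by
    refine ⟨[], ?_, rfl⟩
    simpa using h
  | s :: S, w, h => by
    rw [List.flatten_cons] at h
    obtain ⟨w₁, w₂, rfl, h1, h2⟩ := List.map_eq_append_iff.1 h
    obtain ⟨S', hS', hS''⟩ := exists_flatten_of_map f S w₂ h2
    exact ⟨w₁ :: S', by rw [List.flatten_cons, hS'], by rw [List.map_cons, h1, hS'']⟩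

theorem comapLang_kstar (f : α → β) (L : Language β) :
    comapLang f (KStar.kstar L) = KStar.kstar (comapLang f L) := by
  ext w
  rw [mem_comapLang, Language.mem_kstar, Language.mem_kstar]
  constructor
  · rintro ⟨S, hS, hL⟩
    obtain ⟨S', hw, hS'⟩ := exists_flatten_of_map f S w hS
    refine ⟨S', hw, ?_⟩
    intro y hy
    rw [mem_comapLang]
    apply hL
    rw [← hS']
    exact List.mem_map_of_mem hy
  · rintro ⟨S', rfl, hL⟩
    refine ⟨S'.map (List.map f), ?_, ?_⟩
    · rw [List.map_flatten]
    · intro y hy
      obtain ⟨z, hz, rfl⟩ := List.mem_map.1 hy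
      exact hL z hz

/-- The induction behind `HasGSH.comap`. -/
theorem comap_aux [Fintype α] (f : α → β) :
    ∀ e : GRegex β, HasGSH (comapLang f e.lang) e.height
  | .zero => by
    change HasGSH (comapLang f (0 : Language β)) _
    rw [comapLang_zero]
    exact HasGSH.zero
  | .one => by
    change HasGSH (comapLang f (1 : Language β)) _
    rw [comapLang_one]
    exact HasGSH.one
  | .char b => by
    change HasGSH (comapLang f ({[b]} : Language β)) _
    rw [comapLang_char]
    exact HasGSH.iSup_prop _ _ fun a _ => HasGSH.char a
  | .plus e g => by
    change HasGSH (comapLang f (e.lang + g.lang)) (max e.height g.height)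
    rw [comapLang_add]
    exact ((comap_aux f e).mono (le_max_left _ _)).add ((comap_aux f g).mono (le_max_right _ _))
  | .comp e g => by
    change HasGSH (comapLang f (e.lang * g.lang)) (max e.height g.height)
    rw [comapLang_mul]
    exact ((comap_aux f e).mono (le_max_left _ _)).mul ((comap_aux f g).mono (le_max_right _ _))
  | .compl e => by
    change HasGSH (comapLang f (e.lang)ᶜ) e.height
    rw [comapLang_compl]
    exact (comap_aux f e).compl
  | .star e => by
    change HasGSH (comapLang f (KStar.kstar e.lang)) (e.height + 1)
    rw [comapLang_kstar]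
    exact (comap_aux f e).kstar

/-- Generalized star height does not increase under inverse letter-to-letter maps. -/
theorem hasGSH_comap [Fintype α] (f : α → β) {L : Language β} {n : ℕ} (h : HasGSH L n) :
    HasGSH (comapLang f L) n := by
  obtain ⟨e, rfl, he⟩ := h
  exact (comap_aux f e).mono he

end Vale.Agent.H72
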