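import Vale.Agent.H72.GSH3.SubDet

/-!
# Subwords `aba` (board task G3-PABA)

EXACT statement to prove (do not change it): `pat_aba`.

`profEq K w w'` (file SubDet) says that `w`, `w'` have the same letter counts and unit-clock
counters modulo `K`; then `pw_cast_eq` gives equal power sums `pw S x e` in `ZMod K` for `x ∉ S`
and `count_cast_eq` gives equal letter counts in `ZMod K`.

Proof sketch (`a ≠ b`). Identity over the natural numbers:
  `subCount [a, b, a] w + pw {a} b 2 w = w.count a * pw {a} b 1 w`.
Indeed `subCount_three_mid a b a` (file Subword) writes the subword count as the sum over the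
positions `i` carrying `b` of `A * R`, where `A := (w.take i).count a` and
`R := (w.drop (i + 1)).count a`, and `A + R = w.count a` by `count_take_add_drop` (`b ≠ a`), so
`A * R + A ^ 2 = w.count a * A`. Use `psum_add`, `psum_mul_left`, `psum_congr`,
`countP_mem_singleton`. Cast the identity for `w` and for `w'` to `ZMod (6 * M)`, rewrite with
`pw_cast_eq` (for `e = 1, 2`; `b ∉ {a}`) and `count_cast_eq`, cancel, and finish with
`modEq_of_cast` (file SubDet).
-/

namespace Vale.Agent.H72

universe u

variable {α : Type u} [DecidableEq α]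

/-- The identity over the natural numbers behind `pat_aba`. -/
theorem paba_identity (a b : α) (hab : a ≠ b) (w : List α) :
    subCount [a, b, a] w + pw {a} b 2 w = w.count a * pw {a} b 1 w := by
  have hba : b ≠ a := fun e => hab e.symm
  rw [subCount_three_mid a b a w]
  unfold pw
  rw [← psum_add, ← psum_mul_left]
  apply psum_congr
  intro i _ hi
  have hsplit := count_take_add_drop w i b a hi hba
  rw [countP_mem_singleton, ← hsplit]
  ring

theorem pat_aba {M : ℕ} (hM : 0 < M) {w w' : List α} (h : profEq (6 * M) w w') (a b : α)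
    (hab : a ≠ b) : subCount [a, b, a] w ≡ subCount [a, b, a] w' [MOD M] := by
  have hK : 0 < 6 * M := by omega
  have hb : b ∉ ({a} : Finset α) := by
    rw [Finset.mem_singleton]
    exact fun e => hab e.symm
  have e1 := paba_identity a b hab w
  have e2 := paba_identity a b hab w'
  have c1 : ((subCount [a, b, a] w : ℕ) : ZMod (6 * M)) + ((pw {a} b 2 w : ℕ) : ZMod (6 * M))
      = ((w.count a : ℕ) : ZMod (6 * M)) * ((pw {a} b 1 w : ℕ) : ZMod (6 * M)) := by
    rw [← Nat.cast_add, e1, Nat.cast_mul]
  have c2 : ((subCount [a, b, a] w' : ℕ) : ZMod (6 * M)) + ((pw {a} b 2 w' : ℕ) : ZMod (6 * M))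
      = ((w'.count a : ℕ) : ZMod (6 * M)) * ((pw {a} b 1 w' : ℕ) : ZMod (6 * M)) := by
    rw [← Nat.cast_add, e2, Nat.cast_mul]
  rw [pw_cast_eq hK h {a} b hb 2, pw_cast_eq hK h {a} b hb 1, count_cast_eq h a, ← c2] at c1
  exact modEq_of_cast (add_right_cancel c1)

end Vale.Agent.H72
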