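import Vale.Agent.H72.GSH3.SubDet

/-!
# Subwords `abb` (board task G3-PABB)

EXACT statement to prove (do not change it): `pat_abb`.

`profEq K w w'` (file SubDet) says that `w`, `w'` have the same letter counts and unit-clock
counters modulo `K`; then `pw_cast_eq` gives equal power sums `pw S x e` in `ZMod K` for `x ∉ S`
and `count_cast_eq` gives equal letter counts in `ZMod K`.

Proof sketch (`a ≠ b`). Identity over the natural numbers, with `T := w.count b`:
  `2 * subCount [a, b, b] w + w.count a * T + 2 * T * pw {b} a 1 w
      = w.count a * T ^ 2 + pw {b} a 2 w + pw {b} a 1 w`.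
Indeed `subCount_three_first a b` (file Subword) writes the subword count as the sum over the
positions `i` carrying `a` of `R.choose 2`, where `R := (w.drop (i + 1)).count b`; with
`B := (w.take i).count b` one has `B + R = T` (`count_take_add_drop`, `a ≠ b`), and for each
such position `2 * R.choose 2 + T + 2 * T * B = T ^ 2 + B ^ 2 + B` (from
`2 * R.choose 2 + R = R ^ 2`). Sum over the positions (`psum_add`, `psum_mul_left`,
`psum_congr`, `psum_one` for the number of positions, `countP_mem_singleton`). Cast the identity
for `w` and for `w'` to `ZMod (6 * M)`, rewrite with `pw_cast_eq` (`a ∉ {b}`) and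
`count_cast_eq`, cancel, and finish with `modEq_of_two_mul_cast` (file SubDet).
-/

namespace Vale.Agent.H72

universe u

variable {α : Type u} [DecidableEq α]

theorem pabb_choose (R : ℕ) : 2 * R.choose 2 + R = R ^ 2 := by
  induction R with
  | zero => rfl
  | succ R ih =>
    have h2 : (R + 1).choose 2 = R + R.choose 2 := by
      rw [Nat.choose_succ_succ' R 1, Nat.choose_one_right]
    have e : (R + 1) ^ 2 = R ^ 2 + 2 * R + 1 := by ring
    rw [h2, e]
    omega

/-- The identity over the natural numbers behind `pat_abb`. -/
theorem pabb_identity (a b : α) (hab : a ≠ b) (w : List α) :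
    2 * subCount [a, b, b] w + w.count a * w.count b + 2 * w.count b * pw {b} a 1 w
      = w.count a * w.count b ^ 2 + pw {b} a 2 w + pw {b} a 1 w := by
  have h1 : 2 * subCount [a, b, b] w = psum a (fun _ s => 2 * (s.count b).choose 2) w := by
    rw [subCount_three_first, psum_mul_left]
  have h2 : w.count a * w.count b = psum a (fun _ _ => w.count b * 1) w := by
    rw [psum_mul_left, psum_one, mul_comm]
  have h3 : 2 * w.count b * pw {b} a 1 w
      = psum a (fun p _ => 2 * w.count b * (p.countP (fun z => z ∈ ({b} : Finset α))) ^ 1) w := by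
    rw [psum_mul_left]
    rfl
  have h4 : w.count a * w.count b ^ 2 = psum a (fun _ _ => w.count b ^ 2 * 1) w := by
    rw [psum_mul_left, psum_one, mul_comm]
  have h5 : pw {b} a 2 w
      = psum a (fun p _ => (p.countP (fun z => z ∈ ({b} : Finset α))) ^ 2) w := rfl
  have h6 : pw {b} a 1 w
      = psum a (fun p _ => (p.countP (fun z => z ∈ ({b} : Finset α))) ^ 1) w := rfl
  rw [h1, h2, h3, h4, h5, h6, ← psum_add, ← psum_add, ← psum_add, ← psum_add]
  apply psum_congr
  intro i _ hi
  have hsplit := count_take_add_drop w i a b hi hab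
  have hch := pabb_choose ((w.drop (i + 1)).count b)
  rw [countP_mem_singleton, ← hsplit]
  generalize (w.take i).count b = B at *
  generalize (w.drop (i + 1)).count b = R at *
  generalize R.choose 2 = c at *
  have e1 : 2 * c + (B + R) * 1 + 2 * (B + R) * B ^ 1 = (2 * c + R) + (B + 2 * B ^ 2 + 2 * R * B) := by
    ring
  have e2 : (B + R) ^ 2 * 1 + B ^ 2 + B ^ 1 = R ^ 2 + (B + 2 * B ^ 2 + 2 * R * B) := by ring
  rw [e1, e2, hch]

theorem pat_abb {M : ℕ} (hM : 0 < M) {w w' : List α} (h : profEq (6 * M) w w') (a b : α)
    (hab : a ≠ b) : subCount [a, b, b] w ≡ subCount [a, b, b] w' [MOD M] := by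
  have hK : 0 < 6 * M := by omega
  have ha : a ∉ ({b} : Finset α) := by
    rw [Finset.mem_singleton]
    exact hab
  have c1 := congrArg (Nat.cast : ℕ → ZMod (6 * M)) (pabb_identity a b hab w)
  have c2 := congrArg (Nat.cast : ℕ → ZMod (6 * M)) (pabb_identity a b hab w')
  push_cast at c1 c2
  rw [pw_cast_eq hK h {b} a ha 2, pw_cast_eq hK h {b} a ha 1, count_cast_eq h a,
    count_cast_eq h b] at c1
  apply modEq_of_two_mul_cast
  push_cast
  linear_combination c1 - c2

end Vale.Agent.H72
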