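import Vale.Agent.H72.GSH3.SubDet

/-!
# Subwords `abc` with three distinct letters (board task G3-PABC)

`profEq K w w'` (file SubDet) says that `w`, `w'` have the same letter counts and unit-clock
counters modulo `K`; then `pw_cast_eq` gives equal power sums `pw S x e` in `ZMod K` for `x ∉ S`
and `count_cast_eq` gives equal letter counts in `ZMod K`.

Proof (`a`, `b`, `c` pairwise distinct). Identity over the natural numbers (`patabc_identity`):
  `2 * subCount [a, b, c] w + pw {a, c} b 2 w
      = 2 * w.count c * pw {a} b 1 w + (pw {a} b 2 w + pw {c} b 2 w)`.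
Indeed `subCount_three_mid a b c` (file Subword) writes the subword count as the sum over the
positions `i` carrying `b` of `A * R`, where `A := (w.take i).count a`,
`R := (w.drop (i + 1)).count c`; with `C := (w.take i).count c` one has `C + R = w.count c`
(`count_take_add_drop`, `b ≠ c`), hence `2 * A * R + (A + C) ^ 2 = 2 * w.count c * A + A ^ 2 + C ^ 2`;
and `(w.take i).countP (· ∈ {a, c}) = A + C` (`countP_mem_pair`, `a ≠ c`),
`countP_mem_singleton`. Sum over the positions (`psum_add`, `psum_mul_left`, `psum_congr`).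
Cast the identity for `w` and for `w'` to `ZMod (6 * M)`, rewrite with `pw_cast_eq`
(`b ∉ {a, c}`, `b ∉ {a}`, `b ∉ {c}`) and `count_cast_eq`, cancel, and finish with
`modEq_of_two_mul_cast` (file SubDet).
-/

namespace Vale.Agent.H72

universe u

variable {α : Type u} [DecidableEq α]

/-- The polarisation identity for subwords `abc` with pairwise distinct letters. -/
theorem patabc_identity (a b c : α) (hbc : b ≠ c) (hac : a ≠ c) (w : List α) :
    2 * subCount [a, b, c] w + pw {a, c} b 2 w
      = 2 * w.count c * pw {a} b 1 w + (pw {a} b 2 w + pw {c} b 2 w) := by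
  have hL : 2 * subCount [a, b, c] w + pw {a, c} b 2 w
      = psum b (fun p s => 2 * (p.count a * s.count c)
          + (p.countP (fun z => z ∈ ({a, c} : Finset α))) ^ 2) w := by
    rw [psum_add, psum_mul_left, ← subCount_three_mid]
    rfl
  have hR : 2 * w.count c * pw {a} b 1 w + (pw {a} b 2 w + pw {c} b 2 w)
      = psum b (fun p _ => 2 * w.count c * (p.countP (fun z => z ∈ ({a} : Finset α))) ^ 1
          + ((p.countP (fun z => z ∈ ({a} : Finset α))) ^ 2
            + (p.countP (fun z => z ∈ ({c} : Finset α))) ^ 2)) w := by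
    rw [psum_add b (fun p _ => 2 * w.count c * (p.countP (fun z => z ∈ ({a} : Finset α))) ^ 1)
        (fun p _ => (p.countP (fun z => z ∈ ({a} : Finset α))) ^ 2
            + (p.countP (fun z => z ∈ ({c} : Finset α))) ^ 2),
      psum_mul_left b (2 * w.count c)
        (fun p _ => (p.countP (fun z => z ∈ ({a} : Finset α))) ^ 1),
      psum_add b (fun p _ => (p.countP (fun z => z ∈ ({a} : Finset α))) ^ 2)
        (fun p _ => (p.countP (fun z => z ∈ ({c} : Finset α))) ^ 2)]
    rfl
  rw [hL, hR]
  apply psum_congr
  intro i _ hi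
  have hsplit := count_take_add_drop w i b c hi hbc
  show 2 * ((w.take i).count a * (w.drop (i + 1)).count c)
      + ((w.take i).countP (fun z => z ∈ ({a, c} : Finset α))) ^ 2
    = 2 * w.count c * ((w.take i).countP (fun z => z ∈ ({a} : Finset α))) ^ 1
      + (((w.take i).countP (fun z => z ∈ ({a} : Finset α))) ^ 2
        + ((w.take i).countP (fun z => z ∈ ({c} : Finset α))) ^ 2)
  rw [countP_mem_pair a c hac, countP_mem_singleton, countP_mem_singleton, ← hsplit]
  ring

theorem pat_abc {M : ℕ} (hM : 0 < M) {w w' : List α} (h : profEq (6 * M) w w') (a b c : α)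
    (hab : a ≠ b) (hbc : b ≠ c) (hac : a ≠ c) :
    subCount [a, b, c] w ≡ subCount [a, b, c] w' [MOD M] := by
  have hK : 0 < 6 * M := by omega
  have hb1 : b ∉ ({a, c} : Finset α) := by
    intro hmem
    rcases Finset.mem_insert.1 hmem with h1 | h1
    · exact hab h1.symm
    · exact hbc (Finset.mem_singleton.1 h1)
  have hb2 : b ∉ ({a} : Finset α) := fun hmem => hab (Finset.mem_singleton.1 hmem).symm
  have hb3 : b ∉ ({c} : Finset α) := fun hmem => hbc (Finset.mem_singleton.1 hmem)
  have e1 := pw_cast_eq hK h {a, c} b hb1 2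
  have e2 := pw_cast_eq hK h {a} b hb2 1
  have e3 := pw_cast_eq hK h {a} b hb2 2
  have e4 := pw_cast_eq hK h {c} b hb3 2
  have e5 := count_cast_eq h c
  have i1 := congrArg (fun n : ℕ => (n : ZMod (6 * M))) (patabc_identity a b c hbc hac w)
  have i2 := congrArg (fun n : ℕ => (n : ZMod (6 * M))) (patabc_identity a b c hbc hac w')
  simp only [Nat.cast_add, Nat.cast_mul] at i1 i2
  apply modEq_of_two_mul_cast
  rw [Nat.cast_mul, Nat.cast_mul]
  have key : ((2 : ℕ) : ZMod (6 * M)) * ((subCount [a, b, c] w : ℕ) : ZMod (6 * M))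
      + ((pw {a, c} b 2 w : ℕ) : ZMod (6 * M))
      = ((2 : ℕ) : ZMod (6 * M)) * ((subCount [a, b, c] w' : ℕ) : ZMod (6 * M))
      + ((pw {a, c} b 2 w : ℕ) : ZMod (6 * M)) := by
    rw [i1]
    conv_rhs => rw [e1, i2]
    rw [e2, e3, e4, e5]
  exact add_right_cancel key

end Vale.Agent.H72
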