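import Vale.Agent.H72.GSH3.SubDet

/-!
# Subwords `ab` and `aab` (board task G3-PPRE)

EXACT statements to prove (do not change them): `pat_ab`, `pat_aab`.

`profEq K w w'` (file SubDet) says that `w`, `w'` have the same letter counts and unit-clock
counters modulo `K`; then `pw_cast_eq` gives equal power sums `pw S x e` in `ZMod K` for `x ∉ S`.

Proof sketch (`a ≠ b`).
* `subCount [a, b] w = pw {a} b 1 w`: `subCount_two_last` (file Subword), unfold `pw`,
  `countP_mem_singleton`, `pow_one`. Then `pw_cast_eq` (with `b ∉ {a}`) and `modEq_of_cast`.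
* `2 * subCount [a, a, b] w + pw {a} b 1 w = pw {a} b 2 w`: `subCount_three_last`, then
  `psum_mul_left`, `psum_add`, `psum_congr` with `2 * n.choose 2 + n = n ^ 2` for all `n`
  (induction with `Nat.choose_succ_succ'`). Cast to `ZMod (6 * M)`, use `pw_cast_eq` for
  `e = 1, 2`, cancel, finish with `modEq_of_two_mul_cast`.
-/

namespace Vale.Agent.H72

universe u

variable {α : Type u} [DecidableEq α]

/-- Subwords `ab` as a unit-clock power sum. -/
theorem ppre_ab_identity (a b : α) (w : List α) : subCount [a, b] w = pw {a} b 1 w := by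
  rw [subCount_two_last a b w]
  unfold pw
  apply psum_congr
  intro i _ _
  rw [countP_mem_singleton, pow_one]

/-- `2 * choose n 2 + n = n ^ 2`. -/
theorem ppre_choose_sq (n : ℕ) : 2 * n.choose 2 + n = n ^ 2 := by
  induction n with
  | zero => simp
  | succ n ih =>
    rw [Nat.choose_succ_succ', Nat.choose_one_right]
    have e : (n + 1) ^ 2 = n ^ 2 + 2 * n + 1 := by ring
    rw [e]
    linarith

/-- The identity over the natural numbers behind `pat_aab`. -/
theorem ppre_aab_identity (a b : α) (w : List α) :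
    2 * subCount [a, a, b] w + pw {a} b 1 w = pw {a} b 2 w := by
  rw [subCount_three_last a b w]
  unfold pw
  rw [← psum_mul_left, ← psum_add]
  apply psum_congr
  intro i _ _
  rw [countP_mem_singleton, pow_one]
  exact ppre_choose_sq _

theorem pat_ab {M : ℕ} (hM : 0 < M) {w w' : List α} (h : profEq (6 * M) w w') (a b : α)
    (hab : a ≠ b) : subCount [a, b] w ≡ subCount [a, b] w' [MOD M] := by
  have hK : 0 < 6 * M := by omega
  have hb : b ∉ ({a} : Finset α) := by
    rw [Finset.mem_singleton]
    exact fun e => hab e.symm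
  rw [ppre_ab_identity a b w, ppre_ab_identity a b w']
  exact modEq_of_cast (pw_cast_eq hK h {a} b hb 1)

theorem pat_aab {M : ℕ} (hM : 0 < M) {w w' : List α} (h : profEq (6 * M) w w') (a b : α)
    (hab : a ≠ b) : subCount [a, a, b] w ≡ subCount [a, a, b] w' [MOD M] := by
  have hK : 0 < 6 * M := by omega
  have hb : b ∉ ({a} : Finset α) := by
    rw [Finset.mem_singleton]
    exact fun e => hab e.symm
  have e1 := ppre_aab_identity a b w
  have e2 := ppre_aab_identity a b w'
  have c1 : ((2 * subCount [a, a, b] w : ℕ) : ZMod (6 * M)) + ((pw {a} b 1 w : ℕ) : ZMod (6 * M))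
      = ((pw {a} b 2 w : ℕ) : ZMod (6 * M)) := by
    rw [← Nat.cast_add, e1]
  have c2 : ((2 * subCount [a, a, b] w' : ℕ) : ZMod (6 * M)) +
      ((pw {a} b 1 w' : ℕ) : ZMod (6 * M)) = ((pw {a} b 2 w' : ℕ) : ZMod (6 * M)) := by
    rw [← Nat.cast_add, e2]
  rw [pw_cast_eq hK h {a} b hb 2, pw_cast_eq hK h {a} b hb 1, ← c2] at c1
  exact modEq_of_two_mul_cast (add_right_cancel c1)

end Vale.Agent.H72
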