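import Vale.Agent.H72.GSH3.SubDet

/-!
# Subwords `aa` and `aaa` (board task G3-PSAME)

EXACT statements to prove (do not change them): `pat_aa`, `pat_aaa`.

`profEq K w w'` (file SubDet) says that `w`, `w'` have the same letter counts and unit-clock
counters modulo `K`; here only the letter counts are needed (`count_cast_eq`).

Proof sketch. `subCount_two_same : subCount [a, a] w = (w.count a).choose 2` and
`subCount_three_same : subCount [a, a, a] w = (w.count a).choose 3` (file Subword). For every
`n`: `2 * n.choose 2 + n = n ^ 2` and `6 * n.choose 3 + 3 * n ^ 2 = n ^ 3 + 2 * n` (induction on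
`n` with `Nat.choose_succ_succ'`). Cast these identities to `ZMod (6 * M)` for `n = w.count a`
and `n = w'.count a`, rewrite with `count_cast_eq h a`, cancel the common terms and finish with
`modEq_of_two_mul_cast` / `modEq_of_six_mul_cast` (file SubDet).
-/

namespace Vale.Agent.H72

universe u

variable {α : Type u} [DecidableEq α]

theorem psame_two (n : ℕ) : 2 * n.choose 2 + n = n ^ 2 := by
  induction n with
  | zero => simp
  | succ n ih =>
    have e : (n + 1) ^ 2 = n ^ 2 + 2 * n + 1 := by ring
    rw [Nat.choose_succ_succ', Nat.choose_one_right, e]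
    linarith

theorem psame_three (n : ℕ) : 6 * n.choose 3 + 3 * n ^ 2 = n ^ 3 + 2 * n := by
  induction n with
  | zero => simp
  | succ n ih =>
    have h2 := psame_two n
    have e2 : (n + 1) ^ 2 = n ^ 2 + 2 * n + 1 := by ring
    have e3 : (n + 1) ^ 3 = n ^ 3 + 3 * n ^ 2 + 3 * n + 1 := by ring
    rw [Nat.choose_succ_succ', e2, e3]
    linarith

theorem psame_two_cast (K n : ℕ) :
    ((2 * n.choose 2 : ℕ) : ZMod K) = (n : ZMod K) ^ 2 - (n : ZMod K) := by
  have h := congrArg (Nat.cast : ℕ → ZMod K) (psame_two n)
  push_cast at h ⊢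
  linear_combination h

theorem psame_three_cast (K n : ℕ) :
    ((6 * n.choose 3 : ℕ) : ZMod K)
      = (n : ZMod K) ^ 3 + 2 * (n : ZMod K) - 3 * (n : ZMod K) ^ 2 := by
  have h := congrArg (Nat.cast : ℕ → ZMod K) (psame_three n)
  push_cast at h ⊢
  linear_combination h

theorem pat_aa {M : ℕ} (hM : 0 < M) {w w' : List α} (h : profEq (6 * M) w w') (a : α) :
    subCount [a, a] w ≡ subCount [a, a] w' [MOD M] := by
  rw [subCount_two_same, subCount_two_same]
  apply modEq_of_two_mul_cast
  rw [psame_two_cast, psame_two_cast, count_cast_eq h a]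

theorem pat_aaa {M : ℕ} (hM : 0 < M) {w w' : List α} (h : profEq (6 * M) w w') (a : α) :
    subCount [a, a, a] w ≡ subCount [a, a, a] w' [MOD M] := by
  rw [subCount_three_same, subCount_three_same]
  apply modEq_of_six_mul_cast
  rw [psame_three_cast, psame_three_cast, count_cast_eq h a]

end Vale.Agent.H72
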