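import Vale.Agent.H72.GSH3.UnitClock
import Vale.Agent.H72.GSH3.Subword

/-!
# Power sums of unit clocks are determined by the unit-clock counters

`pw S x e w` is the sum, over the positions of `w` carrying the letter `x`, of the `e`-th power
of the number of earlier letters from `S`. `profEq K w w'` says that `w` and `w'` have the same
letter counts and the same unit-clock counters modulo `K`. Under `profEq K w w'` the power sums
agree modulo `K` (`pw_cast_eq`, `pw_modEq`).
-/

namespace Vale.Agent.H72

open Vale.Agent.H88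

universe u

variable {α : Type u} [DecidableEq α]

/-- The sum over the positions of `w` carrying `x` of the `e`-th power of the number of earlier
letters from `S`. -/
def pw (S : Finset α) (x : α) (e : ℕ) (w : List α) : ℕ :=
  psum x (fun p _ => (p.countP (fun z => z ∈ S)) ^ e) w

/-- The words `w` and `w'` have the same letter counts and the same unit-clock counters
modulo `K`. -/
def profEq (K : ℕ) (w w' : List α) : Prop :=
  (∀ a : α, w.count a ≡ w'.count a [MOD K]) ∧
    ∀ (S : Finset α) (x : α) (r : ℕ), x ∉ S →
      unitCount S x K r w ≡ unitCount S x K r w' [MOD K]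

theorem pw_nil (S : Finset α) (x : α) (e : ℕ) : pw S x e [] = 0 := psum_nil _ _

theorem pw_snoc (S : Finset α) (x : α) (e : ℕ) (w : List α) (y : α) :
    pw S x e (w ++ [y]) = pw S x e w + if y = x then (w.countP (fun z => z ∈ S)) ^ e else 0 :=
  psum_snoc_left x (fun p => (p.countP (fun z => z ∈ S)) ^ e) w y

theorem countP_mem_singleton (a : α) (p : List α) :
    p.countP (fun z => z ∈ ({a} : Finset α)) = p.count a := by
  induction p with
  | nil => rfl
  | cons y p ih =>
    rw [List.countP_cons, List.count_cons, ih]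
    congr 1
    by_cases h : y = a
    · simp [h]
    · simp [h]

theorem countP_mem_pair (a c : α) (hac : a ≠ c) (p : List α) :
    p.countP (fun z => z ∈ ({a, c} : Finset α)) = p.count a + p.count c := by
  induction p with
  | nil => rfl
  | cons y p ih =>
    rw [List.countP_cons, List.count_cons, List.count_cons, ih]
    by_cases h1 : y = a
    · subst h1
      simp [hac]
      ring
    · by_cases h2 : y = c
      · subst h2
        have h3 : ¬ a = y := fun e => h1 e.symm
        simp [h1]
        ring
      · simp [h1, h2]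

/-- A sum over residues picking the residue of `n`. -/
theorem sum_range_indicator (K : ℕ) (hK : 0 < K) (e n : ℕ) :
    ∑ r ∈ Finset.range K, ((r : ZMod K)) ^ e *
        (((if n ≡ r [MOD K] then 1 else 0 : ℕ)) : ZMod K) = (n : ZMod K) ^ e := by
  rw [Finset.sum_eq_single (n % K)]
  · rw [if_pos (Nat.mod_modEq n K).symm, Nat.cast_one, mul_one, ZMod.natCast_mod]
  · intro r hr hne
    have hr' : r < K := Finset.mem_range.1 hr
    have : ¬ n ≡ r [MOD K] := by
      intro h
      apply hne
      have h2 : n % K = r % K := h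
      rw [Nat.mod_eq_of_lt hr'] at h2
      exact h2.symm
    rw [if_neg this, Nat.cast_zero, mul_zero]
  · intro h
    exact absurd (Finset.mem_range.2 (Nat.mod_lt n hK)) h

/-- The power sums in terms of the unit-clock counters, in `ZMod K`. -/
theorem pw_cast (S : Finset α) (x : α) (e K : ℕ) (hK : 0 < K) (w : List α) :
    ((pw S x e w : ℕ) : ZMod K) =
      ∑ r ∈ Finset.range K, ((r : ZMod K)) ^ e * ((unitCount S x K r w : ℕ) : ZMod K) := by
  induction w using List.reverseRecOn with
  | nil => simp [pw_nil, unitCount_nil]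
  | append_singleton w y ih =>
    rw [pw_snoc, Nat.cast_add, ih]
    simp only [unitCount_snoc, Nat.cast_add, mul_add, Finset.sum_add_distrib]
    congr 1
    by_cases hy : y = x
    · simp only [hy, true_and, if_true]
      rw [sum_range_indicator K hK e]
      push_cast
      rfl
    · simp [hy]

/-- Under `profEq` the power sums have the same image in `ZMod K`. -/
theorem pw_cast_eq {K : ℕ} (hK : 0 < K) {w w' : List α} (h : profEq K w w') (S : Finset α)
    (x : α) (hx : x ∉ S) (e : ℕ) :
    ((pw S x e w : ℕ) : ZMod K) = ((pw S x e w' : ℕ) : ZMod K) := by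
  rw [pw_cast S x e K hK, pw_cast S x e K hK]
  apply Finset.sum_congr rfl
  intro r _
  rw [(ZMod.natCast_eq_natCast_iff _ _ _).2 (h.2 S x r hx)]

theorem pw_modEq {K : ℕ} (hK : 0 < K) {w w' : List α} (h : profEq K w w') (S : Finset α)
    (x : α) (hx : x ∉ S) (e : ℕ) : pw S x e w ≡ pw S x e w' [MOD K] :=
  (ZMod.natCast_eq_natCast_iff _ _ _).1 (pw_cast_eq hK h S x hx e)

/-- Under `profEq` the letter counts have the same image in `ZMod K`. -/
theorem count_cast_eq {K : ℕ} {w w' : List α} (h : profEq K w w') (a : α) :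
    ((w.count a : ℕ) : ZMod K) = ((w'.count a : ℕ) : ZMod K) :=
  (ZMod.natCast_eq_natCast_iff _ _ _).2 (h.1 a)

/-- From a congruence of the doubles modulo `6 * M` to a congruence modulo `M`. -/
theorem modEq_of_two_mul_cast {M X X' : ℕ}
    (h : ((2 * X : ℕ) : ZMod (6 * M)) = ((2 * X' : ℕ) : ZMod (6 * M))) : X ≡ X' [MOD M] := by
  have h1 : 2 * X ≡ 2 * X' [MOD 2 * (3 * M)] := by
    have h2 := (ZMod.natCast_eq_natCast_iff _ _ _).1 h
    have e : 6 * M = 2 * (3 * M) := by ring
    rwa [e] at h2
  have h3 : X ≡ X' [MOD 3 * M] := Nat.ModEq.mul_left_cancel' (by norm_num) h1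
  exact Nat.ModEq.of_mul_left 3 h3

/-- From a congruence of the sixfold multiples modulo `6 * M` to a congruence modulo `M`. -/
theorem modEq_of_six_mul_cast {M X X' : ℕ}
    (h : ((6 * X : ℕ) : ZMod (6 * M)) = ((6 * X' : ℕ) : ZMod (6 * M))) : X ≡ X' [MOD M] := by
  have h1 : 6 * X ≡ 6 * X' [MOD 6 * M] := (ZMod.natCast_eq_natCast_iff _ _ _).1 h
  exact Nat.ModEq.mul_left_cancel' (by norm_num) h1

/-- From an equality in `ZMod (6 * M)` to a congruence modulo `M`. -/
theorem modEq_of_cast {M X X' : ℕ}
    (h : ((X : ℕ) : ZMod (6 * M)) = ((X' : ℕ) : ZMod (6 * M))) : X ≡ X' [MOD M] := by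
  have h1 : X ≡ X' [MOD 6 * M] := (ZMod.natCast_eq_natCast_iff _ _ _).1 h
  exact Nat.ModEq.of_mul_left 6 h1

end Vale.Agent.H72
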