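import Vale.Agent.H72.GSH3.PatSame
import Vale.Agent.H72.GSH3.PatPre
import Vale.Agent.H72.GSH3.PatABA
import Vale.Agent.H72.GSH3.PatABB
import Vale.Agent.H72.GSH3.PatABC
import Vale.Agent.H88.SF.FinDet

/-!
# Counting scattered subwords of length at most three modulo `M`

Every language that is a union of classes of the congruence (the numbers of occurrences of
every word of length at most three as a scattered subword agree modulo `M`) has generalized
star height at most one (`hasGSH_of_subCount3`); in particular the languages
`{w | subCount u w ≡ r [MOD M]}` with `|u| ≤ 3` (`hasGSH_subCount`).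
-/

namespace Vale.Agent.H72

open Vale.Agent.H88 Language

universe u

variable {α : Type u} [DecidableEq α]

/-- The subword counts of length at most three are determined modulo `M` by the letter counts
and the unit-clock counters modulo `6 * M`. -/
theorem subCount_modEq_of_profEq {M : ℕ} (hM : 0 < M) {w w' : List α}
    (h : profEq (6 * M) w w') :
    ∀ u : List α, u.length ≤ 3 → subCount u w ≡ subCount u w' [MOD M]
  | [], _ => by
    rw [subCount_nil_left, subCount_nil_left]
  | [a], _ => by
    rw [subCount_one, subCount_one]
    exact Nat.ModEq.of_mul_left 6 (h.1 a)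
  | [a, b], _ => by
    by_cases hab : a = b
    · subst hab
      exact pat_aa hM h a
    · exact pat_ab hM h a b hab
  | [a, b, c], _ => by
    by_cases hab : a = b
    · subst hab
      by_cases hac : a = c
      · subst hac
        exact pat_aaa hM h a
      · exact pat_aab hM h a c hac
    · by_cases hbc : b = c
      · subst hbc
        exact pat_abb hM h a b hab
      · by_cases hac : a = c
        · subst hac
          exact pat_aba hM h a b hab
        · exact pat_abc hM h a b c hab hbc hac
  | _ :: _ :: _ :: _ :: _, hu => by
    simp only [List.length_cons] at hu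
    omega

/-- The unit-clock counter only depends on the residue modulo `k`. -/
theorem unitCount_mod (S : Finset α) (x : α) (k r : ℕ) (w : List α) :
    unitCount S x k r w = unitCount S x k (r % k) w := by
  unfold unitCount
  congr 1
  apply Finset.filter_congr
  intro i _
  have e : ∀ n : ℕ, n ≡ r [MOD k] ↔ n ≡ r % k [MOD k] := by
    intro n
    unfold Nat.ModEq
    rw [Nat.mod_mod]
  rw [e]

/-- **Subword counting of length at most three.** Every language that is a union of classes
of the congruence (same numbers of occurrences modulo `M` of all scattered subwords of length at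
most three) has generalized star height at most one. -/
theorem hasGSH_of_subCount3 [Fintype α] (M : ℕ) (hM : 0 < M) (L : Language α)
    (hL : ∀ w w' : List α,
      (∀ u : List α, u.length ≤ 3 → subCount u w ≡ subCount u w' [MOD M]) → w ∈ L → w' ∈ L) :
    HasGSH L 1 := by
  have hK : 0 < 6 * M := Nat.mul_pos (by norm_num) hM
  refine hasGSH_of_determined (ι := α ⊕ (Finset α × α × Fin (6 * M)))
    (fun i => match i with
      | Sum.inl a => fun w => w.count a
      | Sum.inr (S, x, r) => fun w => if x ∈ S then 0 else unitCount S x (6 * M) (r : ℕ) w)
    (6 * M) hK ?_ L ?_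
  · rintro (a | ⟨S, x, r⟩) c
    · exact hasGSH_count a (6 * M) hK c
    · by_cases hx : x ∈ S
      · have e : modLang (fun w : List α => if x ∈ S then 0 else unitCount S x (6 * M) (r : ℕ) w)
            (6 * M) c = ({_w | 0 ≡ c [MOD 6 * M]} : Language α) := by
          ext w
          change (if x ∈ S then 0 else unitCount S x (6 * M) (r : ℕ) w) ≡ c [MOD 6 * M] ↔ _
          rw [if_pos hx]
          exact Iff.rfl
        change HasGSH (modLang (fun w : List α =>
          if x ∈ S then 0 else unitCount S x (6 * M) (r : ℕ) w) (6 * M) c) 1
        rw [e]
        exact hasGSH_const _ 1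
      · have e : modLang (fun w : List α => if x ∈ S then 0 else unitCount S x (6 * M) (r : ℕ) w)
            (6 * M) c = modLang (unitCount S x (6 * M) (r : ℕ)) (6 * M) c := by
          ext w
          change (if x ∈ S then 0 else unitCount S x (6 * M) (r : ℕ) w) ≡ c [MOD 6 * M] ↔ _
          rw [if_neg hx]
          exact Iff.rfl
        change HasGSH (modLang (fun w : List α =>
          if x ∈ S then 0 else unitCount S x (6 * M) (r : ℕ) w) (6 * M) c) 1
        rw [e]
        exact hasGSH_unitCount S x hx (6 * M) (6 * M) hK hK r c
  · intro w w' hww hw
    refine hL w w' (subCount_modEq_of_profEq hM ⟨?_, ?_⟩) hw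
    · intro a
      exact hww (Sum.inl a)
    · intro S x r hx
      have h1 := hww (Sum.inr (S, x, ⟨r % (6 * M), Nat.mod_lt r hK⟩))
      simp only [if_neg hx] at h1
      rw [unitCount_mod S x (6 * M) r w, unitCount_mod S x (6 * M) r w']
      exact h1

/-- The languages counting a scattered subword of length at most three modulo `M`. -/
theorem hasGSH_subCount [Fintype α] (u : List α) (hu : u.length ≤ 3) (M : ℕ) (hM : 0 < M)
    (r : ℕ) : HasGSH (modLang (subCount u) M r) 1 := by
  refine hasGSH_of_subCount3 M hM _ ?_
  intro w w' h hw
  have hw' : subCount u w ≡ r [MOD M] := hw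
  exact (h u hu).symm.trans hw'

end Vale.Agent.H72
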