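import Vale.Agent.H72.GSH3.Comap
import Vale.Agent.H88.CounterProduct

/-!
# Counting a letter at a prescribed value of a unit clock

For a set `S` of letters (the clock letters), a letter `x` outside `S`, a modulus `k ≥ 1` and a
residue `r`, `unitCount S x k r w` is the number of positions of `w` carrying `x` such that the
number of earlier letters from `S` is congruent to `r` modulo `k`. Its level sets modulo any
`m ≥ 1` have generalized star height at most one (pull back nested modular counting along the
letter-to-letter map merging the letters of `S`).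
-/

namespace Vale.Agent.H72

open Vale.Agent.H88 Language

universe u

variable {α : Type u} [DecidableEq α]

/-- The number of positions `i` of `w` carrying the letter `x` such that the number of letters
from `S` strictly before position `i` is congruent to `r` modulo `k`. -/
def unitCount (S : Finset α) (x : α) (k r : ℕ) (w : List α) : ℕ :=
  ((Finset.range w.length).filter
    (fun i => w[i]? = some x ∧ (w.take i).countP (fun y => y ∈ S) ≡ r [MOD k])).card

theorem unitCount_nil (S : Finset α) (x : α) (k r : ℕ) : unitCount S x k r [] = 0 := by
  simp [unitCount]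

theorem unitCount_snoc (S : Finset α) (x : α) (k r : ℕ) (w : List α) (y : α) :
    unitCount S x k r (w ++ [y]) =
      unitCount S x k r w +
        if (y = x ∧ w.countP (fun z => z ∈ S) ≡ r [MOD k]) then 1 else 0 := by
  unfold unitCount
  have hlen : (w ++ [y]).length = w.length + 1 := by simp
  rw [hlen, Finset.range_add_one, Finset.filter_insert]
  have hcongr : (Finset.range w.length).filter
      (fun i => (w ++ [y])[i]? = some x ∧
        ((w ++ [y]).take i).countP (fun z => z ∈ S) ≡ r [MOD k]) =
      (Finset.range w.length).filter
      (fun i => w[i]? = some x ∧ (w.take i).countP (fun z => z ∈ S) ≡ r [MOD k]) := by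
    apply Finset.filter_congr
    intro i hi
    have hi' : i < w.length := Finset.mem_range.1 hi
    rw [List.getElem?_append_left hi', List.take_append_of_le_length hi'.le]
  rw [hcongr]
  have hlast : ((w ++ [y])[w.length]? = some x ∧
      ((w ++ [y]).take w.length).countP (fun z => z ∈ S) ≡ r [MOD k]) ↔
        (y = x ∧ w.countP (fun z => z ∈ S) ≡ r [MOD k]) := by
    rw [List.getElem?_concat_length, List.take_left']
    · simp
    · rfl
  by_cases hc : y = x ∧ w.countP (fun z => z ∈ S) ≡ r [MOD k]
  · rw [if_pos (hlast.2 hc), if_pos hc, Finset.card_insert_of_notMem]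
    simp
  · rw [if_neg (fun h => hc (hlast.1 h)), if_neg hc]
    rfl

/-- The letter-to-letter map merging the clock letters. -/
def mergeMap (S : Finset α) (x : α) : α → Fin 3 :=
  fun y => if y ∈ S then 0 else if y = x then 1 else 2

theorem mergeMap_eq_zero (S : Finset α) (x : α) (y : α) : mergeMap S x y = 0 ↔ y ∈ S := by
  unfold mergeMap
  split_ifs with h1 h2
  · exact ⟨fun _ => h1, fun _ => rfl⟩
  · exact ⟨fun h => absurd h (by decide), fun h => absurd h h1⟩
  · exact ⟨fun h => absurd h (by decide), fun h => absurd h h1⟩

theorem mergeMap_eq_one (S : Finset α) (x : α) (hx : x ∉ S) (y : α) :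
    mergeMap S x y = 1 ↔ y = x := by
  unfold mergeMap
  split_ifs with h1 h2
  · exact ⟨fun h => absurd h (by decide), fun h => absurd (h ▸ h1) hx⟩
  · exact ⟨fun _ => h2, fun _ => rfl⟩
  · exact ⟨fun h => absurd h (by decide), fun h => absurd h h2⟩

theorem count_map_mergeMap (S : Finset α) (x : α) (w : List α) :
    (w.map (mergeMap S x)).count 0 = w.countP (fun z => z ∈ S) := by
  induction w with
  | nil => rfl
  | cons y w ih =>
    rw [List.map_cons, List.count_cons, ih, List.countP_cons]
    congr 1
    by_cases hy : y ∈ S
    · simp [(mergeMap_eq_zero S x y).2 hy, hy]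
    · have h0 : mergeMap S x y ≠ 0 := fun h => hy ((mergeMap_eq_zero S x y).1 h)
      simp [h0, hy]

theorem nestedCount_map_mergeMap (S : Finset α) (x : α) (hx : x ∉ S) (k r : ℕ) (w : List α) :
    nestedCount (0 : Fin 3) 1 k r (w.map (mergeMap S x)) = unitCount S x k r w := by
  induction w using List.reverseRecOn with
  | nil => simp [nestedCount_nil, unitCount_nil]
  | append_singleton w y ih =>
    rw [List.map_append, List.map_singleton, nestedCount_append_singleton, unitCount_snoc, ih,
      count_map_mergeMap]
    congr 1
    by_cases hy : y = x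
    · have h1 : mergeMap S x y = 1 := (mergeMap_eq_one S x hx y).2 hy
      rw [h1]
      simp [hy]
    · have h1 : mergeMap S x y ≠ 1 := fun h => hy ((mergeMap_eq_one S x hx y).1 h)
      simp [h1, hy]

/-- **Counting a letter at a prescribed value of a unit clock.** -/
theorem hasGSH_unitCount [Fintype α] (S : Finset α) (x : α) (hx : x ∉ S) (k m : ℕ) (hk : 0 < k)
    (hm : 0 < m) (r c : ℕ) : HasGSH (modLang (unitCount S x k r) m c) 1 := by
  have h := hasGSH_comap (mergeMap S x)
    (hasGSH_nestedCount (0 : Fin 3) 1 (by decide) k m hk hm r c)
  refine h.of_eq ?_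
  ext w
  change nestedCount (0 : Fin 3) 1 k r (w.map (mergeMap S x)) ≡ c [MOD m] ↔
    unitCount S x k r w ≡ c [MOD m]
  rw [nestedCount_map_mergeMap S x hx]

end Vale.Agent.H72
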